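import Mathlib

/-!
# P075: the dyadic triangular Hilbert transform, definitions and module statements
-/

namespace Vale.Agent.P075

open Matrix

/-- squared Euclidean length of a real vector -/
def nsq {n : Type} [Fintype n] (u : n → ℝ) : ℝ := ∑ i, u i ^ 2

/-- squared Frobenius norm of a real matrix -/
def fr {m n : Type} [Fintype m] [Fintype n] (W : Matrix m n ℝ) : ℝ := ∑ i, ∑ j, W i j ^ 2

/-- `v` is an orthonormal basis diagonalising `Wᵀ W` and `σ` are the singular values. -/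
structure Sys {m n : Type} [Fintype m] [Fintype n] [DecidableEq n]
    (W : Matrix m n ℝ) (v : n → n → ℝ) (σ : n → ℝ) : Prop where
  nn : ∀ k, 0 ≤ σ k
  orth : ∀ k l, v k ⬝ᵥ v l = if k = l then 1 else 0
  pars : ∀ u : n → ℝ, ∑ k, (v k ⬝ᵥ u) ^ 2 = nsq u
  diag : ∀ k l, (W *ᵥ v k) ⬝ᵥ (W *ᵥ v l) = if k = l then σ k ^ 2 else 0

/-- entrywise product with a sign vector -/
def fl {n : Type} (δ u : n → ℝ) : n → ℝ := fun i => δ i * u i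

/-- squared matrix coefficient of the sign flip in the basis `v` -/
def dd {n : Type} [Fintype n] (v : n → n → ℝ) (δ : n → ℝ) (k l : n) : ℝ :=
  (v k ⬝ᵥ fl δ (v l)) ^ 2

/-- chosen right singular vectors -/
noncomputable def sb {m n : Type} [Fintype m] [Fintype n] [DecidableEq n]
    (W : Matrix m n ℝ) : n → n → ℝ :=
  fun k i => (isHermitian_conjTranspose_mul_self W).eigenvectorBasis k i

/-- singular values -/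
noncomputable def sv {m n : Type} [Fintype m] [Fintype n] [DecidableEq n]
    (W : Matrix m n ℝ) : n → ℝ :=
  fun k => Real.sqrt ((isHermitian_conjTranspose_mul_self W).eigenvalues k)

/-- sum of the cubes of the singular values -/
noncomputable def Psi {m n : Type} [Fintype m] [Fintype n] [DecidableEq n]
    (W : Matrix m n ℝ) : ℝ := ∑ k, sv W k ^ 3

/-- vertex energy -/
noncomputable def NN {m n : Type} [Fintype m] [Fintype n] [DecidableEq n]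
    (W : Matrix m n ℝ) (δ : n → ℝ) : ℝ :=
  ∑ k, ∑ l, dd (sb W) δ k l * (max (sv W k) (sv W l) * min (sv W k) (sv W l) ^ 2)

/-- the column operator `[P; Q]` -/
abbrev col {m₁ m₂ n : Type} (P : Matrix m₁ n ℝ) (Q : Matrix m₂ n ℝ) : Matrix (m₁ ⊕ m₂) n ℝ :=
  fromRows P Q

/-- the `(i,j)` block -/
def blk {ι₁ ι₂ : Type} (P : Matrix (Fin 2 × ι₁) (Fin 2 × ι₂) ℝ) (i j : Fin 2) :
    Matrix ι₁ ι₂ ℝ := fun a b => P (i, a) (j, b)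

/-- sign of a half -/
def sg : Fin 2 → ℝ := ![1, -1]

/-- the sign vector on `Fin 2 × ι` -/
def sgn {ι : Type} : Fin 2 × ι → ℝ := fun x => sg x.1

/-- `G` is dominated by `P` at height `r` -/
def Cls {m p n : Type} [Fintype m] [Fintype p] [Fintype n]
    (r : ℝ) (P : Matrix m n ℝ) (G : Matrix p n ℝ) : Prop :=
  (∀ u, nsq (G *ᵥ u) ≤ r ^ 2 * nsq u) ∧ ∀ u, nsq (G *ᵥ u) ≤ nsq (P *ᵥ u)

/-! ## Module statements -/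

/-- BASE (a): the spectral theorem gives a system. -/
def S_SYS : Prop := ∀ (m n : Type) [Fintype m] [Fintype n] [DecidableEq n]
  (W : Matrix m n ℝ), Sys W (sb W) (sv W)

/-- BASE (b): the Frobenius norm in an orthonormal basis. -/
def S_FR : Prop := ∀ (m n : Type) [Fintype m] [Fintype n] [DecidableEq n]
  (W : Matrix m n ℝ) (v : n → n → ℝ),
  (∀ k l, v k ⬝ᵥ v l = if k = l then 1 else 0) → fr W = ∑ k, nsq (W *ᵥ v k)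

/-- CLIP -/
def S_CLIP : Prop := ∀ (m n : Type) [Fintype m] [Fintype n] [DecidableEq n]
  (W : Matrix m n ℝ) (v : n → n → ℝ) (σ : n → ℝ), Sys W v σ → ∀ s : ℝ, 0 < s →
  ∃ h : Matrix m n ℝ, (∀ u, nsq (h *ᵥ u) ≤ s ^ 2 * nsq u) ∧
    fr (W - h) ≤ ∑ k, (max (σ k - s) 0) ^ 2

/-- GAIN -/
def S_GAIN : Prop := ∀ (m n : Type) [Fintype m] [Fintype n] [DecidableEq n]
  (Y : Matrix m n ℝ) (v : n → n → ℝ) (σ : n → ℝ), Sys Y v σ →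
  ∀ δ : n → ℝ, (∀ i, δ i ^ 2 = 1) → ∀ s : ℝ, 0 < s → ∀ η : Matrix m n ℝ,
  (∀ u, nsq (η *ᵥ u) + nsq (η *ᵥ fl δ u) ≤ s ^ 2 * nsq u) →
  (∑ k, (max (σ k - s) 0) ^ 2) +
    (1 / 2) * ∑ k, ∑ l, (if 2 * s ≤ σ k then (min (σ l) s) ^ 2 else 0) * dd v δ k l
      ≤ fr (Y - η)

/-- ETA -/
def S_ETA : Prop := ∀ (ι₁ ι₂ ι₃ : Type) [Fintype ι₁] [Fintype ι₂] [Fintype ι₃]
  (P : Matrix (Fin 2 × ι₁) (Fin 2 × ι₂) ℝ) (Q : Matrix (Fin 2 × ι₃) (Fin 2 × ι₂) ℝ)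
  (s : ℝ) (h : Fin 2 → Fin 2 → Matrix (ι₁ ⊕ ι₃) ι₂ ℝ),
  (∀ i j u, nsq (h i j *ᵥ u) ≤ s ^ 2 * nsq u) →
  ∃ η : Matrix ((Fin 2 × ι₁) ⊕ (Fin 2 × ι₃)) (Fin 2 × ι₂) ℝ,
    (∀ u, nsq (η *ᵥ u) + nsq (η *ᵥ fl sgn u) ≤ s ^ 2 * nsq u) ∧
    fr ((1 / 2 : ℝ) • col P Q - η) =
      (1 / 4) * ∑ i, ∑ j, fr (col (blk P i j) (blk Q (i + j) j) - h i j)

/-- INT -/
def S_INT : Prop := ∀ (a n : Type) [Fintype a] [Fintype n] (x : a → ℝ) (y : n → ℝ)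
  (d : n → n → ℝ), (∀ i, 0 ≤ x i) → (∀ k, 0 ≤ y k) → (∀ k l, 0 ≤ d k l) →
  (∀ k l, d k l = d l k) →
  (∀ s : ℝ, 0 < s → (∑ k, (max (y k / 2 - s) 0) ^ 2) +
    (1 / 2) * ∑ k, ∑ l, (if 4 * s ≤ y k then (min (y l / 2) s) ^ 2 else 0) * d k l
      ≤ (1 / 4) * ∑ i, (max (x i - s) 0) ^ 2) →
  ∑ k, ∑ l, d k l * (max (y k) (y l) * min (y k) (y l) ^ 2) ≤
    86 * (2 * (∑ i, x i ^ 3) - ∑ k, y k ^ 3)

/-- STEP -/
def S_STEP : Prop := ∀ (ι₁ ι₂ ι₃ : Type) [Fintype ι₁] [Fintype ι₂] [DecidableEq ι₂]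
  [Fintype ι₃] (P : Matrix (Fin 2 × ι₁) (Fin 2 × ι₂) ℝ)
  (Q : Matrix (Fin 2 × ι₃) (Fin 2 × ι₂) ℝ),
  NN (col P Q) sgn ≤ 86 * (2 * (∑ i, ∑ j, Psi (col (blk P i j) (blk Q (i + j) j)))
    - Psi (col P Q))

/-- CLS -/
def S_CLS : Prop := ∀ (m n : Type) [Fintype m] [DecidableEq m] [Fintype n] [DecidableEq n]
  (A : Matrix m n ℝ), ∃ c : ℝ → Matrix m n ℝ,
  (∀ r, 0 < r → Cls r A (c r) ∧ Cls r Aᵀ (c r)ᵀ ∧
    ∃ (G₁ : Matrix m n ℝ) (G₂ : Matrix n n ℝ), G₁ * G₂ = r • (c (2 * r) - c r) ∧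
      Cls r A G₂ ∧ Cls r Aᵀ G₁ᵀ) ∧
  ∃ R : ℝ, ∀ r, R ≤ r → c r = A

/-- COMP -/
def S_COMP : Prop := ∀ (m n p q : Type) [Fintype m] [Fintype n] [DecidableEq n]
  [Fintype p] [Fintype q] (W : Matrix m n ℝ) (v : n → n → ℝ) (σ : n → ℝ), Sys W v σ →
  ∀ δ : n → ℝ, ∀ r : ℝ, 0 < r → ∀ (G : Matrix p n ℝ) (H : Matrix q n ℝ),
  Cls r W G → Cls r W H →
  fr (G * diagonal δ * Hᵀ) ≤ 4 * ∑ k, ∑ l, dd v δ k l * (min (σ k) r ^ 2 * min (σ l) r ^ 2)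

/-- KER -/
def S_KER : Prop := ∀ (x y : ℝ), 0 ≤ x → 0 ≤ y → ∀ J : ℕ,
  ∑ j ∈ Finset.Ico (-(J : ℤ)) J,
    (2 : ℝ) ^ (-j) * (min x ((2 : ℝ) ^ (j + 1)) ^ 2 * min y ((2 : ℝ) ^ (j + 1)) ^ 2) ≤
    8 * (max x y * min x y ^ 2)

/-- TRI -/
def S_TRI : Prop := ∀ (X Y Z : Type) [Fintype X] [DecidableEq X] [Fintype Y] [DecidableEq Y]
  [Fintype Z] [DecidableEq Z] (A : Matrix X Y ℝ) (B : Matrix Y Z ℝ) (C : Matrix Z X ℝ)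
  (δx : X → ℝ) (δy : Y → ℝ) (δz : Z → ℝ), (∀ i, δx i ^ 2 = 1) → (∀ i, δy i ^ 2 = 1) →
  (∀ i, δz i ^ 2 = 1) →
  |(A * diagonal δy * B * diagonal δz * C * diagonal δx).trace| ≤
    32 * (NN (col A Bᵀ) δy + NN (col B Cᵀ) δz + NN (col C Aᵀ) δx)

/-- the trilinear block form with signs, at level `k+1` (blocks of side `2^(k+1)`) -/
noncomputable def TT (f₀ f₁ f₂ : ℕ → ℕ → ℝ) (k X Y Z : ℕ) : ℝ :=
  ∑ a ∈ Finset.range (2 ^ (k + 1)), ∑ b ∈ Finset.range (2 ^ (k + 1)),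
    ∑ c ∈ Finset.range (2 ^ (k + 1)),
    (if a < 2 ^ k then (1 : ℝ) else -1) * (if b < 2 ^ k then (1 : ℝ) else -1) *
      (if c < 2 ^ k then (1 : ℝ) else -1) *
      (f₀ (2 ^ (k + 1) * X + a) (2 ^ (k + 1) * Y + b) *
        f₁ (2 ^ (k + 1) * Y + b) (2 ^ (k + 1) * Z + c) *
        f₂ (2 ^ (k + 1) * Z + c) (2 ^ (k + 1) * X + a))

/-- DISC: the discrete theorem. -/
def S_DISC : Prop := ∃ C : ℝ, 0 < C ∧ ∀ (M : ℕ) (f₀ f₁ f₂ : ℕ → ℕ → ℝ),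
  ∑ k ∈ Finset.range M, ∑ X ∈ Finset.range (2 ^ (M - k - 1)),
    ∑ Y ∈ Finset.range (2 ^ (M - k - 1)),
      |TT f₀ f₁ f₂ k X Y (X ^^^ Y)| / 2 ^ (k + 1) ≤
  C * ∑ x ∈ Finset.range (2 ^ M), ∑ y ∈ Finset.range (2 ^ M),
    (|f₀ x y| ^ 3 + |f₁ x y| ^ 3 + |f₂ x y| ^ 3)

end Vale.Agent.P075
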