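import Mathlib
import Vale.Agent.P075b.Defs

/-!
# P075: modules CLIP and CLS (spectral multipliers of a singular system)
-/

namespace Vale.Agent.P075

open Matrix

namespace ClipX

lemma nsq_eq_dot {n : Type} [Fintype n] (u : n → ℝ) : nsq u = u ⬝ᵥ u := by
  simp only [nsq, dotProduct, sq]

lemma nsq_nonneg {n : Type} [Fintype n] (u : n → ℝ) : 0 ≤ nsq u :=
  Finset.sum_nonneg fun _ _ => sq_nonneg _

/-- the multiplier `∑ f k v k (v k)ᵀ` -/
def M {n : Type} [Fintype n] (v : n → n → ℝ) (f : n → ℝ) : Matrix n n ℝ :=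
  fun i j => ∑ k, f k * v k i * v k j

section
variable {m n : Type} [Fintype m] [Fintype n] [DecidableEq n]

omit [DecidableEq n] in
lemma M_mulVec (v : n → n → ℝ) (f u : n → ℝ) :
    M v f *ᵥ u = ∑ k, (f k * (v k ⬝ᵥ u)) • v k := by
  ext i
  simp only [mulVec, dotProduct, M, Finset.sum_apply, Pi.smul_apply, smul_eq_mul, Finset.sum_mul,
    Finset.mul_sum]
  rw [Finset.sum_comm]
  refine Finset.sum_congr rfl fun k _ => Finset.sum_congr rfl fun j _ => by ring

omit [DecidableEq n] in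
lemma M_transpose (v : n → n → ℝ) (f : n → ℝ) : (M v f)ᵀ = M v f := by
  ext i j
  simp only [transpose_apply, M]
  exact Finset.sum_congr rfl fun k _ => by ring

lemma M_mul (v : n → n → ℝ) (ho : ∀ k l, v k ⬝ᵥ v l = if k = l then 1 else 0)
    (f g : n → ℝ) : M v f * M v g = M v (fun k => f k * g k) := by
  ext i j
  rw [mul_apply]
  simp only [M, Finset.sum_mul, Finset.mul_sum]
  have h1 : ∑ x, ∑ x_1, ∑ i_1, f i_1 * v i_1 i * v i_1 x * (g x_1 * v x_1 x * v x_1 j) =
      ∑ k, ∑ l, f k * v k i * (g l * v l j) * (v k ⬝ᵥ v l) := by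
    simp only [dotProduct, Finset.mul_sum]
    rw [Finset.sum_comm]
    rw [Finset.sum_congr rfl fun _ _ => Finset.sum_comm]
    rw [Finset.sum_comm]
    refine Finset.sum_congr rfl fun k _ => Finset.sum_congr rfl fun l _ =>
      Finset.sum_congr rfl fun x _ => by ring
  rw [h1]
  refine Finset.sum_congr rfl fun k _ => ?_
  rw [Finset.sum_eq_single k]
  · rw [ho, if_pos rfl]; ring
  · intro l _ hl
    rw [ho, if_neg (fun h => hl h.symm), mul_zero]
  · intro h; exact absurd (Finset.mem_univ _) h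

/-- squared norm of the image of a combination of the singular vectors -/
lemma nsq_comb {W : Matrix m n ℝ} {v : n → n → ℝ} {σ : n → ℝ} (h : Sys W v σ) (a : n → ℝ) :
    nsq (W *ᵥ ∑ k, a k • v k) = ∑ k, (a k) ^ 2 * σ k ^ 2 := by
  rw [nsq_eq_dot, mulVec_sum, sum_dotProduct]
  refine Finset.sum_congr rfl fun k _ => ?_
  rw [dotProduct_sum, Finset.sum_eq_single k]
  · rw [mulVec_smul, smul_dotProduct, dotProduct_smul, h.diag, if_pos rfl, smul_eq_mul,
      smul_eq_mul]
    ring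
  · intro l _ hl
    rw [mulVec_smul, mulVec_smul, smul_dotProduct, dotProduct_smul, h.diag,
      if_neg (fun h => hl h.symm), smul_eq_mul, smul_eq_mul, mul_zero, mul_zero]
  · intro h; exact absurd (Finset.mem_univ _) h

lemma nsq_WM {W : Matrix m n ℝ} {v : n → n → ℝ} {σ : n → ℝ} (h : Sys W v σ) (f u : n → ℝ) :
    nsq ((W * M v f) *ᵥ u) = ∑ k, (f k * (v k ⬝ᵥ u)) ^ 2 * σ k ^ 2 := by
  rw [← mulVec_mulVec, M_mulVec, nsq_comb h]

lemma dot_M {W : Matrix m n ℝ} {v : n → n → ℝ} {σ : n → ℝ} (h : Sys W v σ) (f u : n → ℝ) (l : n) :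
    v l ⬝ᵥ (M v f *ᵥ u) = f l * (v l ⬝ᵥ u) := by
  rw [M_mulVec, dotProduct_sum, Finset.sum_eq_single l]
  · rw [dotProduct_smul, h.orth, if_pos rfl, smul_eq_mul, mul_one]
  · intro k _ hk
    rw [dotProduct_smul, h.orth, if_neg (fun h => hk h.symm), smul_eq_mul, mul_zero]
  · intro h; exact absurd (Finset.mem_univ _) h

lemma nsq_M {W : Matrix m n ℝ} {v : n → n → ℝ} {σ : n → ℝ} (h : Sys W v σ) (f u : n → ℝ) :
    nsq (M v f *ᵥ u) = ∑ k, (f k * (v k ⬝ᵥ u)) ^ 2 := by
  rw [← h.pars]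
  exact Finset.sum_congr rfl fun k _ => by rw [dot_M h]

lemma M_one_mulVec {W : Matrix m n ℝ} {v : n → n → ℝ} {σ : n → ℝ} (h : Sys W v σ) (u : n → ℝ) :
    M v (fun _ => 1) *ᵥ u = u := by
  have h1 : nsq (u - M v (fun _ => 1) *ᵥ u) = 0 := by
    rw [← h.pars]
    refine Finset.sum_eq_zero fun k _ => ?_
    rw [dotProduct_sub, dot_M h, one_mul, sub_self]
    norm_num
  rw [nsq, Finset.sum_eq_zero_iff_of_nonneg (fun _ _ => sq_nonneg _)] at h1
  ext i
  have h2 := pow_eq_zero_iff (two_ne_zero) |>.1 (h1 i (Finset.mem_univ i))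
  rw [Pi.sub_apply] at h2
  linarith

lemma M_one {W : Matrix m n ℝ} {v : n → n → ℝ} {σ : n → ℝ} (h : Sys W v σ) :
    M v (fun _ => 1) = 1 := by
  apply Matrix.toLin'.injective
  ext u i
  simp only [toLin'_apply, LinearMap.comp_apply, one_mulVec]
  rw [M_one_mulVec h]

/-- The Frobenius norm in the basis of a system. -/
lemma fr_eq {W : Matrix m n ℝ} {v : n → n → ℝ} {σ : n → ℝ} (h : Sys W v σ) {p : Type} [Fintype p]
    (G : Matrix p n ℝ) : fr G = ∑ k, nsq (G *ᵥ v k) := by
  have h1 : ∀ i, ∑ j, G i j ^ 2 = ∑ k, ((G *ᵥ v k) i) ^ 2 := fun i => by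
    rw [← nsq, ← h.pars]
    exact Finset.sum_congr rfl fun k _ => by rw [mulVec, dotProduct_comm]
  rw [fr, Finset.sum_congr rfl fun i _ => h1 i, Finset.sum_comm]
  rfl

lemma M_mulVec_v {W : Matrix m n ℝ} {v : n → n → ℝ} {σ : n → ℝ} (h : Sys W v σ) (f : n → ℝ)
    (k : n) : M v f *ᵥ v k = f k • v k := by
  rw [M_mulVec, Finset.sum_eq_single k]
  · rw [h.orth, if_pos rfl, mul_one]
  · intro l _ hl
    rw [h.orth, if_neg hl, mul_zero, zero_smul]
  · intro h; exact absurd (Finset.mem_univ _) h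

/-- the clipping multiplier -/
noncomputable def cl (σ : n → ℝ) (s : ℝ) : n → ℝ := fun k => if σ k ≤ s then 1 else s / σ k

omit [Fintype n] [DecidableEq n] in
lemma cl_mul (σ : n → ℝ) (s : ℝ) (hs : 0 < s) (k : n) : cl σ s k * σ k = min (σ k) s := by
  rw [cl]
  split_ifs with h
  · rw [one_mul, min_eq_left h]
  · push Not at h
    rw [div_mul_cancel₀ _ (by linarith), min_eq_right h.le]

omit [Fintype n] [DecidableEq n] in
lemma cl_nonneg (σ : n → ℝ) (hσ : ∀ k, 0 ≤ σ k) (s : ℝ) (hs : 0 < s) (k : n) : 0 ≤ cl σ s k := by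
  rw [cl]
  split_ifs with h
  · exact zero_le_one
  · exact div_nonneg hs.le (hσ k)

omit [Fintype n] [DecidableEq n] in
lemma cl_le_one (σ : n → ℝ) (s : ℝ) (hs : 0 < s) (k : n) : cl σ s k ≤ 1 := by
  rw [cl]
  split_ifs with h
  · exact le_rfl
  · push Not at h
    exact (div_le_one (by linarith)).2 h.le

/-- a bound for the matrix gives the same bound for the transpose -/
lemma nsq_transpose_le {m n : Type} [Fintype m] [Fintype n] (G : Matrix m n ℝ) (r : ℝ)
    (h : ∀ u, nsq (G *ᵥ u) ≤ r ^ 2 * nsq u) (w : m → ℝ) : nsq (Gᵀ *ᵥ w) ≤ r ^ 2 * nsq w := by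
  set u := Gᵀ *ᵥ w with hu
  have h1 : nsq u = w ⬝ᵥ (G *ᵥ u) := by
    rw [nsq_eq_dot]
    conv_lhs => rw [hu, ← hu]
    rw [hu, mulVec_transpose, dotProduct_comm, ← dotProduct_mulVec, dotProduct_comm]
  have h2 : (w ⬝ᵥ (G *ᵥ u)) ^ 2 ≤ nsq w * nsq (G *ᵥ u) := by
    simpa [dotProduct, nsq] using Finset.sum_mul_sq_le_sq_mul_sq Finset.univ w (G *ᵥ u)
  have h4 : nsq u ^ 2 ≤ nsq w * (r ^ 2 * nsq u) := by
    calc nsq u ^ 2 = (w ⬝ᵥ (G *ᵥ u)) ^ 2 := by rw [h1]
      _ ≤ nsq w * nsq (G *ᵥ u) := h2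
      _ ≤ nsq w * (r ^ 2 * nsq u) := mul_le_mul_of_nonneg_left (h u) (nsq_nonneg w)
  rcases (nsq_nonneg u).eq_or_lt with h0 | h0
  · rw [← h0]; exact mul_nonneg (sq_nonneg r) (nsq_nonneg w)
  · have : nsq u * nsq u ≤ (r ^ 2 * nsq w) * nsq u := by nlinarith
    exact le_of_mul_le_mul_right this h0

end

end ClipX

open ClipX

/-- CLIP -/
theorem clip : S_CLIP := by
  intro m n _ _ _ W v σ h s hs
  refine ⟨W * M v (cl σ s), fun u => ?_, ?_⟩
  · rw [nsq_WM h, ← h.pars, Finset.mul_sum]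
    refine Finset.sum_le_sum fun k _ => ?_
    have h1 := cl_mul σ s hs k
    have h2 : (cl σ s k * (v k ⬝ᵥ u)) ^ 2 * σ k ^ 2 = (min (σ k) s) ^ 2 * (v k ⬝ᵥ u) ^ 2 := by
      rw [← h1]; ring
    rw [h2]
    refine mul_le_mul_of_nonneg_right ?_ (sq_nonneg _)
    exact pow_le_pow_left₀ (le_min (h.nn k) hs.le) (min_le_right _ _) 2
  · rw [fr_eq h]
    refine Finset.sum_le_sum fun k _ => ?_
    have h1 : (W - W * M v (cl σ s)) *ᵥ v k = W *ᵥ ((1 - cl σ s k) • v k) := by
      rw [sub_mulVec, ← mulVec_mulVec, M_mulVec_v h, sub_smul, one_smul, mulVec_sub]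
    have h2 : nsq (W *ᵥ ((1 - cl σ s k) • v k)) = (1 - cl σ s k) ^ 2 * σ k ^ 2 := by
      rw [nsq_eq_dot, mulVec_smul, smul_dotProduct, dotProduct_smul, h.diag, if_pos rfl]
      simp only [smul_eq_mul]; ring
    rw [h1, h2, ← mul_pow, sub_mul, one_mul, cl_mul σ s hs]
    apply le_of_eq
    congr 1
    rcases le_total (σ k) s with h3 | h3
    · rw [min_eq_left h3, max_eq_right (by linarith), sub_self]
    · rw [min_eq_right h3, max_eq_left (by linarith)]

/-- CLS: the clipped operators and their increments. -/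
theorem cls (hSYS : S_SYS) : S_CLS := by
  intro m n _ _ _ _ A
  have h : Sys A (sb A) (sv A) := hSYS m n A
  set v := sb A with hv
  set σ := sv A with hσ
  refine ⟨fun r => A * M v (cl σ r), ?_, ∑ k, σ k, ?_⟩
  · intro r hr
    have hnn := h.nn
    -- bounds for `c r`
    have b1 : ∀ u, nsq ((A * M v (cl σ r)) *ᵥ u) ≤ r ^ 2 * nsq u := by
      intro u
      rw [nsq_WM h, ← h.pars, Finset.mul_sum]
      refine Finset.sum_le_sum fun k _ => ?_
      have h2 : (cl σ r k * (v k ⬝ᵥ u)) ^ 2 * σ k ^ 2 = (min (σ k) r) ^ 2 * (v k ⬝ᵥ u) ^ 2 := by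
        rw [← cl_mul σ r hr k]; ring
      rw [h2]
      refine mul_le_mul_of_nonneg_right ?_ (sq_nonneg _)
      exact pow_le_pow_left₀ (le_min (h.nn k) hr.le) (min_le_right _ _) 2
    have nA : ∀ u, nsq (A *ᵥ u) = ∑ k, (v k ⬝ᵥ u) ^ 2 * σ k ^ 2 := by
      intro u
      have := nsq_WM h (fun _ => 1) u
      rw [M_one h, Matrix.mul_one] at this
      rw [this]
      exact Finset.sum_congr rfl fun k _ => by rw [one_mul]
    have hM : ∀ f : n → ℝ, (∀ k, 0 ≤ f k) → (∀ k, f k ≤ 1) → ∀ u, nsq (M v f *ᵥ u) ≤ nsq u := by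
      intro f hf0 hf1 u
      rw [nsq_M h, ← h.pars]
      refine Finset.sum_le_sum fun k _ => ?_
      rw [mul_pow]
      have := pow_le_one₀ (n := 2) (hf0 k) (hf1 k)
      nlinarith [sq_nonneg (v k ⬝ᵥ u)]
    -- the increment
    set g : n → ℝ := fun k => min (σ k) (2 * r) - min (σ k) r with hg
    have hg0 : ∀ k, 0 ≤ g k := fun k => by
      have : min (σ k) r ≤ min (σ k) (2 * r) := min_le_min_left _ (by linarith)
      simp only [hg]; linarith
    have hg1 : ∀ k, g k ≤ r := fun k => by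
      simp only [hg]
      rcases le_total (σ k) r with h1 | h1
      · rw [min_eq_left h1]
        linarith [min_le_left (σ k) (2 * r)]
      · rw [min_eq_right h1]
        linarith [min_le_right (σ k) (2 * r)]
    have hg2 : ∀ k, σ k ≤ r → g k = 0 := fun k hk => by
      simp only [hg]
      rw [min_eq_left hk, min_eq_left (by linarith), sub_self]
    set a : n → ℝ := fun k => Real.sqrt (r * g k) with ha
    set b : n → ℝ := fun k => if σ k ≤ r then 0 else Real.sqrt (r * g k) / σ k with hb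
    have ha2 : ∀ k, a k ^ 2 = r * g k := fun k => Real.sq_sqrt (mul_nonneg hr.le (hg0 k))
    have ha0 : ∀ k, 0 ≤ a k := fun k => Real.sqrt_nonneg _
    have hbσ : ∀ k, b k * σ k = a k := fun k => by
      simp only [hb, ha]
      split_ifs with h1
      · rw [zero_mul, hg2 k h1, mul_zero, Real.sqrt_zero]
      · push Not at h1
        rw [div_mul_cancel₀ _ (by linarith)]
    have hb0 : ∀ k, 0 ≤ b k := fun k => by
      simp only [hb]
      split_ifs with h1
      · exact le_rfl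
      · exact div_nonneg (Real.sqrt_nonneg _) (hnn k)
    have haσ : ∀ k, a k ^ 2 ≤ σ k ^ 2 := fun k => by
      rw [ha2]
      rcases le_total (σ k) r with h1 | h1
      · rw [hg2 k h1, mul_zero]; exact sq_nonneg _
      · have h2 := hg1 k
        have h3 := hg0 k
        nlinarith
    have har : ∀ k, a k ^ 2 ≤ r ^ 2 := fun k => by
      rw [ha2]
      have h2 := hg1 k
      nlinarith
    have hb1 : ∀ k, b k ≤ 1 := fun k => by
      rcases le_or_gt (σ k) r with h1 | h1
      · simp only [hb, if_pos h1]; exact zero_le_one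
      · have h2 : a k ≤ σ k := abs_le_of_sq_le_sq' (haσ k) (hnn k) |>.2
        have h3 : 0 < σ k := hr.trans h1
        have h4 := hbσ k
        rw [← h4] at h2
        exact le_of_mul_le_mul_right (by rw [one_mul]; exact h2) h3
    have b2 : ∀ u, nsq ((A * M v b) *ᵥ u) ≤ r ^ 2 * nsq u := by
      intro u
      rw [nsq_WM h, ← h.pars, Finset.mul_sum]
      refine Finset.sum_le_sum fun k _ => ?_
      have h2 : (b k * (v k ⬝ᵥ u)) ^ 2 * σ k ^ 2 = a k ^ 2 * (v k ⬝ᵥ u) ^ 2 := by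
        rw [← hbσ k]; ring
      rw [h2]
      exact mul_le_mul_of_nonneg_right (har k) (sq_nonneg _)
    refine ⟨⟨b1, ?_⟩, ⟨nsq_transpose_le _ r b1, ?_⟩, A * M v b, M v a, ?_, ⟨?_, ?_⟩,
      nsq_transpose_le _ r b2, ?_⟩
    · intro u
      rw [nsq_WM h, nA]
      refine Finset.sum_le_sum fun k _ => ?_
      refine mul_le_mul_of_nonneg_right ?_ (sq_nonneg _)
      rw [mul_pow]
      have h1 := pow_le_one₀ (n := 2) (cl_nonneg σ hnn r hr k) (cl_le_one σ r hr k)
      nlinarith [sq_nonneg (v k ⬝ᵥ u)]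
    · intro u
      rw [transpose_mul, M_transpose, ← mulVec_mulVec]
      exact hM _ (cl_nonneg σ hnn r hr) (cl_le_one σ r hr) _
    · rw [Matrix.mul_assoc, M_mul v h.orth, ← Matrix.mul_sub, ← Matrix.mul_smul]
      congr 1
      ext i j
      simp only [M, Matrix.smul_apply, Matrix.sub_apply, smul_eq_mul, ← Finset.sum_sub_distrib, Finset.mul_sum]
      refine Finset.sum_congr rfl fun k _ => ?_
      have key : b k * a k = r * (cl σ (2 * r) k - cl σ r k) := by
        rcases le_or_gt (σ k) r with h1 | h1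
        · simp only [hb, cl]
          rw [if_pos h1, if_pos h1, if_pos (by linarith)]
          ring
        · have h3 : σ k ≠ 0 := (hr.trans h1).ne'
          have h4 : (b k * a k) * σ k = (r * (cl σ (2 * r) k - cl σ r k)) * σ k := by
            have e1 : (b k * a k) * σ k = a k ^ 2 := by rw [← hbσ k]; ring
            have e2 : (r * (cl σ (2 * r) k - cl σ r k)) * σ k =
                r * (cl σ (2 * r) k * σ k - cl σ r k * σ k) := by ring
            rw [e1, e2, cl_mul σ r hr, cl_mul σ (2 * r) (by linarith), ha2]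
          exact mul_right_cancel₀ h3 h4
      rw [key]; ring
    · intro u
      rw [nsq_M h, ← h.pars, Finset.mul_sum]
      refine Finset.sum_le_sum fun k _ => ?_
      rw [mul_pow]
      exact mul_le_mul_of_nonneg_right (har k) (sq_nonneg _)
    · intro u
      rw [nsq_M h, nA]
      refine Finset.sum_le_sum fun k _ => ?_
      rw [mul_pow, mul_comm]
      exact mul_le_mul_of_nonneg_left (haσ k) (sq_nonneg _)
    · intro u
      rw [transpose_mul, M_transpose, ← mulVec_mulVec]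
      exact hM _ hb0 hb1 _
  · intro r hr
    have h1 : cl σ r = fun _ => 1 := by
      funext k
      rw [cl, if_pos]
      exact (Finset.single_le_sum (fun k _ => h.nn k) (Finset.mem_univ k)).trans hr
    show A * M v (cl σ r) = A
    rw [h1, M_one h, Matrix.mul_one]

end Vale.Agent.P075
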