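import Mathlib
import Vale.Agent.P075b.Defs

/-!
# P075, module COMP
-/

namespace Vale.Agent.P075

open Matrix

namespace CompX

lemma nsq_eq {n : Type} [Fintype n] (u : n → ℝ) : nsq u = u ⬝ᵥ u := by
  unfold nsq dotProduct
  exact Finset.sum_congr rfl fun i _ => by ring

lemma nsq_nonneg {n : Type} [Fintype n] (u : n → ℝ) : 0 ≤ nsq u :=
  Finset.sum_nonneg fun i _ => sq_nonneg _

lemma nsq_add_le {n : Type} [Fintype n] (u w : n → ℝ) :
    nsq (u + w) ≤ 2 * nsq u + 2 * nsq w := by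
  unfold nsq
  rw [Finset.mul_sum, Finset.mul_sum, ← Finset.sum_add_distrib]
  refine Finset.sum_le_sum fun i _ => ?_
  simp only [Pi.add_apply]
  nlinarith [sq_nonneg (u i - w i)]

lemma eq_zero_of_nsq {n : Type} [Fintype n] {u : n → ℝ} (h : nsq u = 0) : u = 0 := by
  funext i
  have := (Finset.sum_eq_zero_iff_of_nonneg (fun i _ => sq_nonneg (u i))).1 h i (Finset.mem_univ i)
  simpa using this

section
variable {m n : Type} [Fintype m] [Fintype n] [DecidableEq n]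
  {W : Matrix m n ℝ} {v : n → n → ℝ} {σ : n → ℝ}

lemma dot_comb (h : Sys W v σ) (c : n → ℝ) (l : n) : v l ⬝ᵥ (∑ k, c k • v k) = c l := by
  rw [dotProduct_sum]
  simp only [dotProduct_smul, h.orth, smul_eq_mul, mul_ite, mul_one, mul_zero]
  simp

lemma expand (h : Sys W v σ) (u : n → ℝ) : ∑ k, (v k ⬝ᵥ u) • v k = u := by
  have h1 : nsq (∑ k, (v k ⬝ᵥ u) • v k - u) = 0 := by
    rw [← h.pars]
    refine Finset.sum_eq_zero fun l _ => ?_
    rw [dotProduct_sub, dot_comb h, sub_self]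
    simp
  exact sub_eq_zero.1 (eq_zero_of_nsq h1)

lemma nsq_comb (h : Sys W v σ) (c : n → ℝ) : nsq (∑ k, c k • v k) = ∑ k, c k ^ 2 := by
  rw [← h.pars]
  exact Finset.sum_congr rfl fun l _ => by rw [dot_comb h]

lemma nsq_W_comb (h : Sys W v σ) (c : n → ℝ) :
    nsq (W *ᵥ ∑ k, c k • v k) = ∑ k, c k ^ 2 * σ k ^ 2 := by
  have h1 : W *ᵥ ∑ k, c k • v k = ∑ k, c k • (W *ᵥ v k) := by
    rw [Matrix.mulVec_sum]
    exact Finset.sum_congr rfl fun k _ => by rw [Matrix.mulVec_smul]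
  rw [nsq_eq, h1, sum_dotProduct]
  refine Finset.sum_congr rfl fun k _ => ?_
  rw [dotProduct_sum]
  simp only [smul_dotProduct, dotProduct_smul, h.diag, smul_eq_mul, mul_ite, mul_zero]
  simp
  ring

lemma key (h : Sys W v σ) {r : ℝ} (hr : 0 < r) {p : Type} [Fintype p] {G : Matrix p n ℝ}
    (hG : Cls r W G) (u : n → ℝ) :
    nsq (G *ᵥ u) ≤ 2 * ∑ k, min (σ k) r ^ 2 * (v k ⬝ᵥ u) ^ 2 := by
  set c₁ : n → ℝ := fun k => if σ k ≤ r then v k ⬝ᵥ u else 0 with hc₁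
  set c₂ : n → ℝ := fun k => if σ k ≤ r then 0 else v k ⬝ᵥ u with hc₂
  have h1 : u = (∑ k, c₁ k • v k) + ∑ k, c₂ k • v k := by
    rw [← Finset.sum_add_distrib]
    conv_lhs => rw [← expand h u]
    refine Finset.sum_congr rfl fun k _ => ?_
    simp only [hc₁, hc₂]
    split_ifs <;> simp
  have h2 : nsq (G *ᵥ u) ≤ 2 * nsq (G *ᵥ ∑ k, c₁ k • v k) + 2 * nsq (G *ᵥ ∑ k, c₂ k • v k) := by
    conv_lhs => rw [h1, Matrix.mulVec_add]
    exact nsq_add_le _ _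
  have h3 : nsq (G *ᵥ ∑ k, c₁ k • v k) ≤ ∑ k, c₁ k ^ 2 * σ k ^ 2 := by
    rw [← nsq_W_comb h]
    exact hG.2 _
  have h4 : nsq (G *ᵥ ∑ k, c₂ k • v k) ≤ r ^ 2 * ∑ k, c₂ k ^ 2 := by
    rw [← nsq_comb h]
    exact hG.1 _
  have h5 : ∑ k, c₁ k ^ 2 * σ k ^ 2 + r ^ 2 * ∑ k, c₂ k ^ 2 =
      ∑ k, min (σ k) r ^ 2 * (v k ⬝ᵥ u) ^ 2 := by
    rw [Finset.mul_sum, ← Finset.sum_add_distrib]
    refine Finset.sum_congr rfl fun k _ => ?_
    simp only [hc₁, hc₂]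
    split_ifs with hk
    · rw [min_eq_left hk]; ring
    · rw [min_eq_right (not_le.1 hk).le]; ring
  linarith

omit [DecidableEq n] in
lemma dot_fl (δ u w : n → ℝ) : u ⬝ᵥ fl δ w = fl δ u ⬝ᵥ w := by
  unfold dotProduct fl
  exact Finset.sum_congr rfl fun i _ => by ring

end

end CompX

open CompX in
/-- COMP -/
theorem comp : S_COMP := by
  intro m n p q _ _ _ _ _ W v σ h δ r hr G H hG hH
  have h1 : fr (G * diagonal δ * Hᵀ) = ∑ a, nsq (G *ᵥ fl δ (H a)) := by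
    unfold fr nsq
    rw [Finset.sum_comm]
    refine Finset.sum_congr rfl fun a _ => Finset.sum_congr rfl fun i _ => ?_
    congr 1
    rw [Matrix.mul_apply]
    simp only [Matrix.mul_diagonal, Matrix.transpose_apply]
    unfold Matrix.mulVec dotProduct fl
    exact Finset.sum_congr rfl fun b _ => by ring
  have h2 : ∀ a, nsq (G *ᵥ fl δ (H a)) ≤
      2 * ∑ k, min (σ k) r ^ 2 * (v k ⬝ᵥ fl δ (H a)) ^ 2 := fun a => key h hr hG _
  have h3 : ∀ k, ∑ a, (v k ⬝ᵥ fl δ (H a)) ^ 2 = nsq (H *ᵥ fl δ (v k)) := by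
    intro k
    unfold nsq
    refine Finset.sum_congr rfl fun a _ => ?_
    rw [dot_fl, dotProduct_comm]
    rfl
  have h4 : ∀ k, nsq (H *ᵥ fl δ (v k)) ≤
      2 * ∑ l, min (σ l) r ^ 2 * (v l ⬝ᵥ fl δ (v k)) ^ 2 := fun k => key h hr hH _
  rw [h1]
  calc ∑ a, nsq (G *ᵥ fl δ (H a)) ≤
      ∑ a, 2 * ∑ k, min (σ k) r ^ 2 * (v k ⬝ᵥ fl δ (H a)) ^ 2 :=
        Finset.sum_le_sum fun a _ => h2 a
    _ = 2 * ∑ k, min (σ k) r ^ 2 * ∑ a, (v k ⬝ᵥ fl δ (H a)) ^ 2 := by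
        rw [← Finset.mul_sum, Finset.sum_comm]
        congr 1
        exact Finset.sum_congr rfl fun k _ => by rw [Finset.mul_sum]
    _ ≤ 2 * ∑ k, min (σ k) r ^ 2 * (2 * ∑ l, min (σ l) r ^ 2 * (v l ⬝ᵥ fl δ (v k)) ^ 2) := by
        refine mul_le_mul_of_nonneg_left (Finset.sum_le_sum fun k _ => ?_) (by norm_num)
        rw [h3]
        exact mul_le_mul_of_nonneg_left (h4 k) (sq_nonneg _)
    _ = 4 * ∑ k, ∑ l, dd v δ k l * (min (σ k) r ^ 2 * min (σ l) r ^ 2) := by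
        rw [show (4 : ℝ) = 2 * 2 by norm_num, mul_assoc]
        congr 1
        rw [Finset.mul_sum]
        refine Finset.sum_congr rfl fun k _ => ?_
        rw [← mul_assoc, mul_comm _ (2 : ℝ), mul_assoc]
        congr 1
        rw [Finset.mul_sum]
        refine Finset.sum_congr rfl fun l _ => ?_
        unfold dd
        rw [dot_fl, dotProduct_comm (fl δ (v l))]
        ring

end Vale.Agent.P075
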