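import Mathlib
import Vale.Agent.P075b.Defs

namespace Vale.Agent.P075

open Matrix

namespace EtaX

variable {ι₁ ι₂ ι₃ : Type} [Fintype ι₁] [Fintype ι₂] [Fintype ι₃]

/-- the block operator -/
noncomputable def et (h : Fin 2 → Fin 2 → Matrix (ι₁ ⊕ ι₃) ι₂ ℝ) :
    Matrix ((Fin 2 × ι₁) ⊕ (Fin 2 × ι₃)) (Fin 2 × ι₂) ℝ :=
  fun r q => match r with
    | Sum.inl x => (1 / 2) * h x.1 q.1 (Sum.inl x.2) q.2
    | Sum.inr x => (1 / 2) * h (x.1 + q.1) q.1 (Sum.inr x.2) q.2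

lemma mulVec_inl (h : Fin 2 → Fin 2 → Matrix (ι₁ ⊕ ι₃) ι₂ ℝ) (u : Fin 2 × ι₂ → ℝ) (i : Fin 2)
    (a : ι₁) : (et h *ᵥ u) (Sum.inl (i, a)) =
      (1 / 2) * ((h i 0 *ᵥ fun b => u (0, b)) (Sum.inl a) +
        (h i 1 *ᵥ fun b => u (1, b)) (Sum.inl a)) := by
  simp only [mulVec, dotProduct, et, Fintype.sum_prod_type, Fin.sum_univ_two]
  rw [mul_add, Finset.mul_sum, Finset.mul_sum]
  congr 1 <;> exact Finset.sum_congr rfl fun b _ => by ring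

lemma mulVec_inr (h : Fin 2 → Fin 2 → Matrix (ι₁ ⊕ ι₃) ι₂ ℝ) (u : Fin 2 × ι₂ → ℝ) (l : Fin 2)
    (c : ι₃) : (et h *ᵥ u) (Sum.inr (l, c)) =
      (1 / 2) * ((h (l + 0) 0 *ᵥ fun b => u (0, b)) (Sum.inr c) +
        (h (l + 1) 1 *ᵥ fun b => u (1, b)) (Sum.inr c)) := by
  simp only [mulVec, dotProduct, et, Fintype.sum_prod_type, Fin.sum_univ_two]
  rw [mul_add, Finset.mul_sum, Finset.mul_sum]
  congr 1 <;> exact Finset.sum_congr rfl fun b _ => by ring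

omit [Fintype ι₂] in
lemma fl0 (u : Fin 2 × ι₂ → ℝ) : (fun b => fl sgn u (0, b)) = fun b => u (0, b) := by
  funext b; simp [fl, sgn, sg]

omit [Fintype ι₂] in
lemma fl1 (u : Fin 2 × ι₂ → ℝ) : (fun b => fl sgn u (1, b)) = -fun b => u (1, b) := by
  funext b; simp [fl, sgn, sg]

lemma bound (h : Fin 2 → Fin 2 → Matrix (ι₁ ⊕ ι₃) ι₂ ℝ) (s : ℝ)
    (hh : ∀ i j u, nsq (h i j *ᵥ u) ≤ s ^ 2 * nsq u) (u : Fin 2 × ι₂ → ℝ) :
    nsq (et h *ᵥ u) + nsq (et h *ᵥ fl sgn u) ≤ s ^ 2 * nsq u := by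
  have e : nsq (et h *ᵥ u) + nsq (et h *ᵥ fl sgn u) =
      (1 / 2) * ((nsq (h 0 0 *ᵥ fun b => u (0, b)) + nsq (h 1 0 *ᵥ fun b => u (0, b))) +
        (nsq (h 0 1 *ᵥ fun b => u (1, b)) + nsq (h 1 1 *ᵥ fun b => u (1, b)))) := by
    have par : ∀ (κ : Type) [Fintype κ] (p q : κ → ℝ),
        ∑ a, (1 / 2 * (p a + q a)) ^ 2 + ∑ a, (1 / 2 * (p a + -q a)) ^ 2 =
          1 / 2 * (∑ a, p a ^ 2) + 1 / 2 * ∑ a, q a ^ 2 := by
      intro κ _ p q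
      rw [Finset.mul_sum, Finset.mul_sum, ← Finset.sum_add_distrib, ← Finset.sum_add_distrib]
      exact Finset.sum_congr rfl fun a _ => by ring
    simp only [nsq, Fintype.sum_sum_type, Fintype.sum_prod_type, Fin.sum_univ_two, mulVec_inl,
      mulVec_inr, fl0, fl1, mulVec_neg, Pi.neg_apply, add_zero]
    have e1 : (0 : Fin 2) + 1 = 1 := rfl
    have e2 : (1 : Fin 2) + 1 = 0 := rfl
    rw [e1, e2]
    have p1 := par ι₁ (fun a => (h 0 0 *ᵥ fun b => u (0, b)) (Sum.inl a))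
      (fun a => (h 0 1 *ᵥ fun b => u (1, b)) (Sum.inl a))
    have p2 := par ι₁ (fun a => (h 1 0 *ᵥ fun b => u (0, b)) (Sum.inl a))
      (fun a => (h 1 1 *ᵥ fun b => u (1, b)) (Sum.inl a))
    have p3 := par ι₃ (fun a => (h 0 0 *ᵥ fun b => u (0, b)) (Sum.inr a))
      (fun a => (h 1 1 *ᵥ fun b => u (1, b)) (Sum.inr a))
    have p4 := par ι₃ (fun a => (h 1 0 *ᵥ fun b => u (0, b)) (Sum.inr a))
      (fun a => (h 0 1 *ᵥ fun b => u (1, b)) (Sum.inr a))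
    linarith
  rw [e]
  have h00 := hh 0 0 fun b => u (0, b)
  have h10 := hh 1 0 fun b => u (0, b)
  have h01 := hh 0 1 fun b => u (1, b)
  have h11 := hh 1 1 fun b => u (1, b)
  have hu : nsq u = nsq (fun b => u (0, b)) + nsq (fun b => u (1, b)) := by
    simp [nsq, Fintype.sum_prod_type, Fin.sum_univ_two]
  rw [hu]
  nlinarith

lemma frob (P : Matrix (Fin 2 × ι₁) (Fin 2 × ι₂) ℝ) (Q : Matrix (Fin 2 × ι₃) (Fin 2 × ι₂) ℝ)
    (h : Fin 2 → Fin 2 → Matrix (ι₁ ⊕ ι₃) ι₂ ℝ) :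
    fr ((1 / 2 : ℝ) • col P Q - et h) =
      (1 / 4) * ∑ i, ∑ j, fr (col (blk P i j) (blk Q (i + j) j) - h i j) := by
  have e1 : (0 : Fin 2) + 1 = 1 := rfl
  have e2 : (1 : Fin 2) + 1 = 0 := rfl
  have e3 : (1 : Fin 2) + 0 = 1 := rfl
  have q : ∀ x y : ℝ, (1 / 2 * x - 1 / 2 * y) ^ 2 = 1 / 4 * (x - y) ^ 2 := fun x y => by ring
  simp only [fr, Fintype.sum_sum_type, Fintype.sum_prod_type, Fin.sum_univ_two, Matrix.sub_apply,
    Matrix.smul_apply, smul_eq_mul, fromRows_apply_inl, fromRows_apply_inr, et, blk, add_zero, zero_add,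
    e2, q, ← Finset.mul_sum, ← mul_add, Finset.sum_add_distrib]
  ring

end EtaX

theorem eta : S_ETA := by
  intro ι₁ ι₂ ι₃ _ _ _ P Q s h hh
  exact ⟨EtaX.et h, EtaX.bound h s hh, EtaX.frob P Q h⟩

end Vale.Agent.P075
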