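import Mathlib
import Vale.Agent.P075b.Defs

/-!
# P075, module GAIN
-/

namespace Vale.Agent.P075

open Matrix

namespace GainX

variable {m n : Type} [Fintype m] [Fintype n]

lemma nsq_nonneg (u : n → ℝ) : 0 ≤ nsq u := Finset.sum_nonneg fun _ _ => sq_nonneg _

lemma nsq_dot (u : n → ℝ) : nsq u = u ⬝ᵥ u := by
  simp only [nsq, dotProduct, pow_two]

lemma nsq_fl (δ : n → ℝ) (hδ : ∀ i, δ i ^ 2 = 1) (u : n → ℝ) : nsq (fl δ u) = nsq u := by
  simp only [nsq, fl, mul_pow, hδ, one_mul]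

lemma dot_fl (δ : n → ℝ) (u w : n → ℝ) : u ⬝ᵥ fl δ w = fl δ u ⬝ᵥ w := by
  simp only [dotProduct, fl]
  exact Finset.sum_congr rfl fun i _ => by ring

lemma dot_sq_le (u w : n → ℝ) : (u ⬝ᵥ w) ^ 2 ≤ nsq u * nsq w :=
  Finset.sum_mul_sq_le_sq_mul_sq _ _ _

variable [DecidableEq n]

lemma fr_eq {W' : Matrix m n ℝ} {v : n → n → ℝ} {σ : n → ℝ} (hs : Sys W' v σ)
    (W : Matrix m n ℝ) : fr W = ∑ k, nsq (W *ᵥ v k) := by
  have h : ∀ i, nsq (W i) = ∑ k, ((W *ᵥ v k) i) ^ 2 := by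
    intro i
    rw [← hs.pars (W i)]
    refine Finset.sum_congr rfl fun k _ => ?_
    rw [dotProduct_comm]; rfl
  show ∑ i, nsq (W i) = _
  simp_rw [h, nsq]
  rw [Finset.sum_comm]

lemma fr_eq_fl {W' : Matrix m n ℝ} {v : n → n → ℝ} {σ : n → ℝ} (hs : Sys W' v σ)
    (δ : n → ℝ) (hδ : ∀ i, δ i ^ 2 = 1)
    (W : Matrix m n ℝ) : fr W = ∑ k, nsq (W *ᵥ fl δ (v k)) := by
  have h : ∀ i, nsq (W i) = ∑ k, ((W *ᵥ fl δ (v k)) i) ^ 2 := by
    intro i
    rw [← nsq_fl δ hδ (W i), ← hs.pars (fl δ (W i))]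
    refine Finset.sum_congr rfl fun k _ => ?_
    rw [dot_fl, dotProduct_comm]; rfl
  show ∑ i, nsq (W i) = _
  simp_rw [h, nsq]
  rw [Finset.sum_comm]

/-- clip factor -/
noncomputable def cf (s x : ℝ) : ℝ := if x ≤ s then 1 else s / x

lemma cf_mul {s x : ℝ} (hs : 0 < s) : (cf s x * x) ^ 2 = (min x s) ^ 2 := by
  unfold cf
  split_ifs with h
  · rw [one_mul, min_eq_left h]
  · have hx0 : x ≠ 0 := by intro h0; apply h; rw [h0]; exact hs.le
    rw [div_mul_cancel₀ _ hx0, min_eq_right (le_of_not_ge h)]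

/-- spectral clip -/
noncomputable def clp (Y : Matrix m n ℝ) (v : n → n → ℝ) (σ : n → ℝ) (s : ℝ) : Matrix m n ℝ :=
  fun i j => ∑ k, cf s (σ k) * (Y *ᵥ v k) i * v k j

lemma clp_mulVec (Y : Matrix m n ℝ) (v : n → n → ℝ) (σ : n → ℝ) (s : ℝ) (u : n → ℝ) (i : m) :
    (clp Y v σ s *ᵥ u) i = ∑ k, cf s (σ k) * (v k ⬝ᵥ u) * (Y *ᵥ v k) i := by
  simp only [mulVec, clp, dotProduct, Finset.sum_mul, Finset.mul_sum]
  rw [Finset.sum_comm]
  refine Finset.sum_congr rfl fun k _ => ?_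
  rw [Finset.sum_comm]
  refine Finset.sum_congr rfl fun j _ => Finset.sum_congr rfl fun j' _ => ?_
  ring

lemma clp_basis {Y : Matrix m n ℝ} {v : n → n → ℝ} {σ : n → ℝ} (hs : Sys Y v σ) (s : ℝ) (k : n) :
    clp Y v σ s *ᵥ v k = cf s (σ k) • (Y *ᵥ v k) := by
  funext i
  rw [clp_mulVec]
  simp only [hs.orth, mul_ite, mul_one, mul_zero, ite_mul, zero_mul, Pi.smul_apply, smul_eq_mul]
  simp

lemma nsq_clp {Y : Matrix m n ℝ} {v : n → n → ℝ} {σ : n → ℝ} (hs : Sys Y v σ) {s : ℝ}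
    (h0 : 0 < s) (u : n → ℝ) :
    nsq (clp Y v σ s *ᵥ u) = ∑ l, (min (σ l) s) ^ 2 * (v l ⬝ᵥ u) ^ 2 := by
  have e1 : nsq (clp Y v σ s *ᵥ u) = ∑ k, ∑ l, (cf s (σ k) * (v k ⬝ᵥ u)) *
      (cf s (σ l) * (v l ⬝ᵥ u)) * ((Y *ᵥ v k) ⬝ᵥ (Y *ᵥ v l)) := by
    simp only [nsq, clp_mulVec, pow_two, Finset.sum_mul_sum]
    rw [Finset.sum_comm]
    refine Finset.sum_congr rfl fun k _ => ?_
    rw [Finset.sum_comm]
    refine Finset.sum_congr rfl fun l _ => ?_
    generalize cf s (σ k) * (v k ⬝ᵥ u) = a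
    generalize cf s (σ l) * (v l ⬝ᵥ u) = b
    show _ = a * b * ∑ i, (Y *ᵥ v k) i * (Y *ᵥ v l) i
    rw [Finset.mul_sum]
    refine Finset.sum_congr rfl fun i _ => by ring
  rw [e1]
  refine Finset.sum_congr rfl fun k _ => ?_
  simp only [hs.diag, mul_ite, mul_zero]
  rw [Finset.sum_ite_eq Finset.univ k, if_pos (Finset.mem_univ _)]
  rw [← cf_mul h0]
  ring

/-- the pointwise gain -/
lemma gain_pt (y e f : m → ℝ) (σ s : ℝ) (h0 : 0 < s) (hy : nsq y = σ ^ 2)
    (he : nsq e + nsq f ≤ s ^ 2) :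
    (max (σ - s) 0) ^ 2 + nsq (cf s σ • y - e) + (if 2 * s ≤ σ then nsq f else 0) ≤
      nsq (y - e) := by
  by_cases h : σ ≤ s
  · have h1 : ¬ 2 * s ≤ σ := by linarith
    have h2 : max (σ - s) 0 = 0 := max_eq_right (by linarith)
    have h3 : cf s σ = 1 := if_pos h
    rw [h2, h3, if_neg h1, one_smul]
    simp
  · have hσs : s < σ := lt_of_not_ge h
    have hσ0 : 0 < σ := h0.trans hσs
    set c := cf s σ with hc
    have hcv : c = s / σ := if_neg h
    have hcσ : c * σ = s := by rw [hcv]; field_simp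
    have h2 : max (σ - s) 0 = σ - s := max_eq_left (by linarith)
    rw [h2]
    set E := Real.sqrt (nsq e) with hE
    have hE0 : 0 ≤ E := Real.sqrt_nonneg _
    have hE2 : E ^ 2 = nsq e := Real.sq_sqrt (nsq_nonneg _)
    have hf0 := nsq_nonneg f
    have hEs : E ≤ s := by
      apply le_of_sq_le_sq _ h0.le
      rw [hE2]; linarith
    have hye : y ⬝ᵥ e ≤ σ * E := by
      have h3 := dot_sq_le y e
      rw [hy, ← hE2] at h3
      have h4 : |y ⬝ᵥ e| ≤ σ * E := by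
        apply abs_le_of_sq_le_sq _ (by positivity)
        nlinarith
      exact (le_abs_self _).trans h4
    have expand : nsq (y - e) = nsq y - 2 * (y ⬝ᵥ e) + nsq e := by
      simp only [nsq, dotProduct, Pi.sub_apply, Finset.mul_sum]
      rw [← Finset.sum_sub_distrib, ← Finset.sum_add_distrib]
      exact Finset.sum_congr rfl fun i _ => by ring
    have expand2 : nsq (c • y - e) = c ^ 2 * nsq y - 2 * c * (y ⬝ᵥ e) + nsq e := by
      simp only [nsq, dotProduct, Pi.sub_apply, Pi.smul_apply, smul_eq_mul, Finset.mul_sum]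
      rw [← Finset.sum_sub_distrib, ← Finset.sum_add_distrib]
      exact Finset.sum_congr rfl fun i _ => by ring
    rw [expand, expand2, hy]
    have hc1 : 0 ≤ 1 - c := by
      have : c ≤ 1 := by
        rw [hcv, div_le_one hσ0]; exact hσs.le
      linarith
    -- main: 2 (1-c) (cσ² - y·e) ≥ 2 (σ-s)(s-E)
    have key : 2 * (σ - s) * (s - E) ≤ 2 * (1 - c) * (c * σ ^ 2 - y ⬝ᵥ e) := by
      have h5 : c * σ ^ 2 = s * σ := by rw [pow_two, ← mul_assoc, hcσ]
      have h6 : σ * (s - E) ≤ c * σ ^ 2 - y ⬝ᵥ e := by rw [h5]; nlinarith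
      have h7 := mul_le_mul_of_nonneg_left h6 hc1
      have h8 : (1 - c) * (σ * (s - E)) = (σ - s) * (s - E) := by
        have : (1 - c) * σ = σ - s := by rw [sub_mul, hcσ, one_mul]
        rw [← mul_assoc, this]
      linarith
    have hgain : (if 2 * s ≤ σ then nsq f else 0) ≤ 2 * (σ - s) * (s - E) := by
      split_ifs with h9
      · have h10 : nsq f ≤ (s - E) * (s + E) := by nlinarith
        have h11 : (s - E) * (s + E) ≤ (s - E) * (2 * s) :=
          mul_le_mul_of_nonneg_left (by linarith) (by linarith)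
        have h12 : (s - E) * (2 * s) ≤ (s - E) * (2 * (σ - s)) :=
          mul_le_mul_of_nonneg_left (by linarith) (by linarith)
        linarith
      · have : 0 ≤ (σ - s) * (s - E) := mul_nonneg (by linarith) (by linarith)
        linarith
    have hid : (σ - s) ^ 2 = (1 - c) ^ 2 * σ ^ 2 := by
      have : (1 - c) * σ = σ - s := by rw [sub_mul, hcσ, one_mul]
      rw [← mul_pow, this]
    rw [hid]
    nlinarith [hgain, key]

end GainX

open GainX

theorem gain : S_GAIN := by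
  intro m n _ _ _ Y v σ hs δ hδ s h0 η hη
  set h := clp Y v σ s with hh
  have hv1 : ∀ k, nsq (v k) = 1 := by
    intro k
    rw [nsq_dot, hs.orth, if_pos rfl]
  have hy : ∀ k, nsq (Y *ᵥ v k) = σ k ^ 2 := by
    intro k
    rw [nsq_dot, hs.diag, if_pos rfl]
  have h1 : ∑ k, ((max (σ k - s) 0) ^ 2 + nsq (cf s (σ k) • (Y *ᵥ v k) - η *ᵥ v k) +
      (if 2 * s ≤ σ k then nsq (η *ᵥ fl δ (v k)) else 0)) ≤ fr (Y - η) := by
    rw [fr_eq hs (Y - η)]
    apply Finset.sum_le_sum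
    intro k _
    rw [sub_mulVec]
    apply gain_pt _ _ _ _ _ h0 (hy k)
    have := hη (v k)
    rw [hv1, mul_one] at this
    exact this
  have h2 : fr (h - η) = ∑ k, nsq (cf s (σ k) • (Y *ᵥ v k) - η *ᵥ v k) := by
    rw [fr_eq hs (h - η)]
    refine Finset.sum_congr rfl fun k _ => ?_
    rw [sub_mulVec, hh, clp_basis hs]
  have h3 : (1 / 2) * ∑ k, ∑ l, (if 2 * s ≤ σ k then (min (σ l) s) ^ 2 else 0) * dd v δ k l ≤
      fr (h - η) + ∑ k, (if 2 * s ≤ σ k then nsq (η *ᵥ fl δ (v k)) else 0) := by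
    rw [fr_eq_fl hs δ hδ (h - η), ← Finset.sum_add_distrib, Finset.mul_sum]
    apply Finset.sum_le_sum
    intro k _
    by_cases hk : 2 * s ≤ σ k
    · simp only [if_pos hk]
      have e1 : ∑ l, (min (σ l) s) ^ 2 * dd v δ k l = nsq (h *ᵥ fl δ (v k)) := by
        rw [hh, nsq_clp hs h0]
        refine Finset.sum_congr rfl fun l _ => ?_
        rw [dd, dot_fl, dotProduct_comm]
      rw [e1]
      -- |hw|² ≤ 2|ηw|² + 2|(h-η)w|²
      set w := fl δ (v k)
      have e2 : nsq (h *ᵥ w) ≤ 2 * nsq (η *ᵥ w) + 2 * nsq ((h - η) *ᵥ w) := by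
        rw [sub_mulVec]
        simp only [nsq, Finset.mul_sum]
        rw [← Finset.sum_add_distrib]
        apply Finset.sum_le_sum
        intro i _
        simp only [Pi.sub_apply]
        nlinarith [sq_nonneg ((h *ᵥ w) i - 2 * (η *ᵥ w) i)]
      linarith
    · simp only [if_neg hk, zero_mul, Finset.sum_const_zero, mul_zero, add_zero]
      exact nsq_nonneg _
  rw [Finset.sum_add_distrib, Finset.sum_add_distrib, ← h2] at h1
  linarith

end Vale.Agent.P075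

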