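import Mathlib
import Vale.Agent.P075b.Defs

/-!
# P075, module INT: integration over the height `s`
-/

namespace Vale.Agent.P075

open MeasureTheory Set

namespace IntX

theorem int_pos_part {a M : ℝ} (ha : 0 ≤ a) (haM : a ≤ M) :
    ∫ s in (0 : ℝ)..M, (max (a - s) 0) ^ 2 = a ^ 3 / 3 := by
  have hc : Continuous fun s : ℝ => (max (a - s) 0) ^ 2 := by fun_prop
  rw [← intervalIntegral.integral_add_adjacent_intervals (b := a) (hc.intervalIntegrable _ _)
    (hc.intervalIntegrable _ _)]
  have h1 : ∫ s in (0 : ℝ)..a, (max (a - s) 0) ^ 2 = a ^ 3 / 3 := by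
    have e : ∫ s in (0 : ℝ)..a, (max (a - s) 0) ^ 2 = ∫ s in (0 : ℝ)..a, (a - s) ^ 2 := by
      refine intervalIntegral.integral_congr fun s hs => ?_
      rw [uIcc_of_le ha] at hs
      rw [max_eq_left (by linarith [hs.2])]
    rw [e, intervalIntegral.integral_comp_sub_left (fun u => u ^ 2) a, integral_pow]
    norm_num
  have h2 : ∫ s in a..M, (max (a - s) 0) ^ 2 = 0 := by
    have e : ∫ s in a..M, (max (a - s) 0) ^ 2 = ∫ s in a..M, (0 : ℝ) := by
      refine intervalIntegral.integral_congr fun s hs => ?_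
      rw [uIcc_of_le haM] at hs
      rw [max_eq_right (by linarith [hs.1])]
      norm_num
    rw [e]
    simp
  rw [h1, h2, add_zero]

theorem int_ind {p q M c : ℝ} (hp : 0 ≤ p) (hpq : p ≤ q) (hq : q ≤ M) :
    ∫ s in (0 : ℝ)..M, (Ioc p q).indicator (fun _ => c) s = (q - p) * c := by
  rw [intervalIntegral.integral_of_le (by linarith), setIntegral_indicator measurableSet_Ioc,
    inter_eq_self_of_subset_right (Ioc_subset_Ioc hp hq), setIntegral_const, smul_eq_mul,
    measureReal_def, Real.volume_Ioc, ENNReal.toReal_ofReal (by linarith)]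

theorem ii_ind (p q M c : ℝ) :
    IntervalIntegrable (fun s => (Ioc p q).indicator (fun _ => c) s) volume 0 M := by
  rw [intervalIntegrable_iff]
  have h : IntervalIntegrable (fun _ : ℝ => c) volume 0 M := intervalIntegrable_const
  rw [intervalIntegrable_iff] at h
  exact h.indicator measurableSet_Ioc

end IntX

open IntX in
theorem int : S_INT := by
  classical
  intro a n _ _ x y d hx hy hd hsym h
  -- an upper bound for everything
  obtain ⟨M, hMx, hMy⟩ : ∃ M : ℝ, (∀ i, x i ≤ M) ∧ (∀ k, y k ≤ M) := by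
    refine ⟨(∑ i, x i) + ∑ k, y k, fun i => ?_, fun k => ?_⟩
    · have h1 := Finset.single_le_sum (fun i _ => hx i) (Finset.mem_univ i)
      have h2 : 0 ≤ ∑ k, y k := Finset.sum_nonneg fun k _ => hy k
      linarith
    · have h1 := Finset.single_le_sum (fun k _ => hy k) (Finset.mem_univ k)
      have h2 : 0 ≤ ∑ i, x i := Finset.sum_nonneg fun i _ => hx i
      linarith
  by_cases hM0 : 0 ≤ M
  swap
  · -- both types are empty
    have ha : IsEmpty a := ⟨fun i => hM0 ((hx i).trans (hMx i))⟩
    have hn : IsEmpty n := ⟨fun k => hM0 ((hy k).trans (hMy k))⟩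
    simp
  let φ : n → n → ℝ → ℝ := fun k l s =>
    (Ioc (y k / 8) (y k / 4)).indicator (fun _ => if y l ≤ y k then (y l / 8) ^ 2 else 0) s
  have hφ : ∀ k l, ∀ s : ℝ, 0 < s → φ k l s ≤ if 4 * s ≤ y k then (min (y l / 2) s) ^ 2 else 0 := by
    intro k l s hs
    simp only [φ]
    by_cases hm : s ∈ Ioc (y k / 8) (y k / 4)
    · have h4 : 4 * s ≤ y k := by linarith [hm.2]
      rw [indicator_of_mem hm, if_pos h4]
      split_ifs with hl
      · refine pow_le_pow_left₀ (by linarith [hy l]) (le_min (by linarith [hy l]) ?_) 2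
        linarith [hm.1]
      · positivity
    · rw [indicator_of_notMem hm]
      split_ifs <;> positivity
  -- integrate
  have hφi : ∀ k l, IntervalIntegrable (fun s => φ k l s * d k l) volume 0 M := fun k l =>
    (ii_ind _ _ _ _).mul_const _
  have hφk : ∀ k, IntervalIntegrable (fun s => ∑ l, φ k l s * d k l) volume 0 M := by
    intro k
    have := IntervalIntegrable.sum Finset.univ fun l (_ : l ∈ Finset.univ) => hφi k l
    simpa only [Finset.sum_fn] using this
  have hφs : IntervalIntegrable (fun s => (1 / 2) * ∑ k, ∑ l, φ k l s * d k l) volume 0 M := by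
    have := IntervalIntegrable.sum Finset.univ fun k (_ : k ∈ Finset.univ) => hφk k
    have h2 : IntervalIntegrable (fun s => ∑ k, ∑ l, φ k l s * d k l) volume 0 M := by
      simpa only [Finset.sum_fn] using this
    exact h2.const_mul _
  have hc1 : Continuous fun s : ℝ => ∑ k, (max (y k / 2 - s) 0) ^ 2 := by fun_prop
  have hc2 : Continuous fun s : ℝ => (1 / 4) * ∑ i, (max (x i - s) 0) ^ 2 := by fun_prop
  have hF : ∫ s in (0 : ℝ)..M, ((∑ k, (max (y k / 2 - s) 0) ^ 2) +
      (1 / 2) * ∑ k, ∑ l, φ k l s * d k l) = (∑ k, (y k / 2) ^ 3 / 3) + (1 / 2) * ∑ k, ∑ l,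
      ((y k / 4 - y k / 8) * (if y l ≤ y k then (y l / 8) ^ 2 else 0)) * d k l := by
    rw [intervalIntegral.integral_add (hc1.intervalIntegrable _ _) hφs,
      intervalIntegral.integral_finsetSum fun k _ =>
        (show Continuous fun s : ℝ => (max (y k / 2 - s) 0) ^ 2 by fun_prop).intervalIntegrable _ _,
      intervalIntegral.integral_const_mul,
      intervalIntegral.integral_finsetSum fun k _ => hφk k]
    congr 1
    · refine Finset.sum_congr rfl fun k _ => ?_
      exact int_pos_part (by linarith [hy k]) (by linarith [hy k, hMy k])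
    · congr 1
      refine Finset.sum_congr rfl fun k _ => ?_
      rw [intervalIntegral.integral_finsetSum fun l _ => hφi k l]
      refine Finset.sum_congr rfl fun l _ => ?_
      rw [intervalIntegral.integral_mul_const]
      congr 1
      exact int_ind (by linarith [hy k]) (by linarith [hy k]) (by linarith [hy k, hMy k])
  have hG : ∫ s in (0 : ℝ)..M, ((1 / 4) * ∑ i, (max (x i - s) 0) ^ 2) =
      (1 / 4) * ∑ i, x i ^ 3 / 3 := by
    rw [intervalIntegral.integral_const_mul,
      intervalIntegral.integral_finsetSum fun i _ =>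
        (show Continuous fun s : ℝ => (max (x i - s) 0) ^ 2 by fun_prop).intervalIntegrable _ _]
    congr 1
    exact Finset.sum_congr rfl fun i _ => int_pos_part (hx i) (hMx i)
  have hint : (∑ k, (y k / 2) ^ 3 / 3) + (1 / 2) * ∑ k, ∑ l,
      ((y k / 4 - y k / 8) * (if y l ≤ y k then (y l / 8) ^ 2 else 0)) * d k l ≤
      (1 / 4) * ∑ i, x i ^ 3 / 3 := by
    rw [← hF, ← hG]
    refine intervalIntegral.integral_mono_on_of_le_Ioo hM0 ((hc1.intervalIntegrable _ _).add hφs)
      (hc2.intervalIntegrable _ _) fun s hs => ?_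
    refine le_trans ?_ (h s hs.1)
    have h3 : ∑ k, ∑ l, φ k l s * d k l ≤
        ∑ k, ∑ l, (if 4 * s ≤ y k then (min (y l / 2) s) ^ 2 else 0) * d k l :=
      Finset.sum_le_sum fun k _ => Finset.sum_le_sum fun l _ =>
        mul_le_mul_of_nonneg_right (hφ k l s hs.1) (hd k l)
    linarith
  -- symmetrise
  set D := ∑ k, ∑ l, ((y k / 4 - y k / 8) * (if y l ≤ y k then (y l / 8) ^ 2 else 0)) * d k l
    with hD
  set E := ∑ k, ∑ l, d k l * (max (y k) (y l) * min (y k) (y l) ^ 2) with hE
  have hDE : E ≤ 1024 * D := by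
    have hD2 : D = ∑ k, ∑ l, ((y l / 4 - y l / 8) * (if y k ≤ y l then (y k / 8) ^ 2 else 0)) *
        d k l := by
      rw [hD, Finset.sum_comm]
      refine Finset.sum_congr rfl fun k _ => Finset.sum_congr rfl fun l _ => ?_
      rw [hsym l k]
    have h2D : 2 * D = ∑ k, ∑ l, (((y k / 4 - y k / 8) * (if y l ≤ y k then (y l / 8) ^ 2 else 0)) +
        ((y l / 4 - y l / 8) * (if y k ≤ y l then (y k / 8) ^ 2 else 0))) * d k l := by
      have : 2 * D = D + D := by ring
      rw [this]
      conv_lhs => rw [hD]; arg 2; rw [← hD, hD2]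
      rw [← Finset.sum_add_distrib]
      refine Finset.sum_congr rfl fun k _ => ?_
      rw [← Finset.sum_add_distrib]
      exact Finset.sum_congr rfl fun l _ => by ring
    have h4 : E ≤ 512 * (2 * D) := by
      rw [h2D, hE, Finset.mul_sum]
      refine Finset.sum_le_sum fun k _ => ?_
      rw [Finset.mul_sum]
      refine Finset.sum_le_sum fun l _ => ?_
      have key : max (y k) (y l) * min (y k) (y l) ^ 2 ≤
          512 * (((y k / 4 - y k / 8) * (if y l ≤ y k then (y l / 8) ^ 2 else 0)) +
            ((y l / 4 - y l / 8) * (if y k ≤ y l then (y k / 8) ^ 2 else 0))) := by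
        rcases le_total (y l) (y k) with hlk | hkl
        · rw [max_eq_left hlk, min_eq_right hlk, if_pos hlk]
          have : 0 ≤ (y l / 4 - y l / 8) * (if y k ≤ y l then (y k / 8) ^ 2 else 0) := by
            refine mul_nonneg (by linarith [hy l]) ?_
            split_ifs <;> positivity
          nlinarith
        · rw [max_eq_right hkl, min_eq_left hkl, if_pos hkl]
          have : 0 ≤ (y k / 4 - y k / 8) * (if y l ≤ y k then (y l / 8) ^ 2 else 0) := by
            refine mul_nonneg (by linarith [hy k]) ?_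
            split_ifs <;> positivity
          nlinarith
      have := mul_le_mul_of_nonneg_left key (hd k l)
      linarith
    linarith
  have hsy : ∑ k, (y k / 2) ^ 3 / 3 = (∑ k, y k ^ 3) / 24 := by
    rw [Finset.sum_div]
    exact Finset.sum_congr rfl fun k _ => by ring
  have hsx : (1 / 4 : ℝ) * ∑ i, x i ^ 3 / 3 = (∑ i, x i ^ 3) / 12 := by
    rw [Finset.mul_sum, Finset.sum_div]
    exact Finset.sum_congr rfl fun i _ => by ring
  rw [hsy, hsx] at hint
  have hE0 : 0 ≤ E := Finset.sum_nonneg fun k _ => Finset.sum_nonneg fun l _ =>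
    mul_nonneg (hd k l) (mul_nonneg (le_max_of_le_left (hy k)) (sq_nonneg _))
  nlinarith

end Vale.Agent.P075
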