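import Mathlib
import Vale.Agent.P075b.Defs

/-! P075, module KER -/

namespace Vale.Agent.P075

namespace KerX

lemma sum_telescope (g : ℤ → ℝ) (a : ℤ) (n : ℕ) :
    ∑ j ∈ Finset.Ico a (a + n), (g (j + 1) - g j) = g (a + n) - g a := by
  induction n with
  | zero => simp
  | succ n ih =>
    have h : Finset.Ico a (a + ((n + 1 : ℕ) : ℤ)) = insert (a + n) (Finset.Ico a (a + n)) := by
      ext j
      simp only [Finset.mem_Ico, Finset.mem_insert]
      push_cast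
      omega
    rw [h, Finset.sum_insert (by simp), ih]
    push_cast
    rw [← add_assoc]
    ring

/-- potential -/
noncomputable def Ph (x r : ℝ) : ℝ := if r ≤ x then 2 * r else 8 * x - 4 * x ^ 2 / r

lemma Ph_nonneg {x r : ℝ} (hx : 0 ≤ x) (hr : 0 < r) : 0 ≤ Ph x r := by
  unfold Ph
  split_ifs with h
  · positivity
  · push_neg at h
    rw [sub_nonneg, div_le_iff₀ hr]
    nlinarith

lemma Ph_le {x r : ℝ} (hx : 0 ≤ x) (hr : 0 < r) : Ph x r ≤ 8 * x := by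
  unfold Ph
  split_ifs with h
  · linarith
  · have : 0 ≤ 4 * x ^ 2 / r := by positivity
    linarith

lemma step {x r : ℝ} (hx : 0 ≤ x) (hr : 0 < r) :
    2 / r * min x r ^ 2 ≤ Ph x (2 * r) - Ph x r := by
  unfold Ph
  by_cases h1 : 2 * r ≤ x
  · have h2 : r ≤ x := by linarith
    rw [if_pos h1, if_pos h2, min_eq_right h2]
    have : 2 / r * r ^ 2 = 2 * r := by field_simp
    rw [this]
    linarith
  · rw [if_neg h1]
    push_neg at h1
    by_cases h2 : r ≤ x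
    · rw [if_pos h2, min_eq_right h2]
      have e1 : 2 / r * r ^ 2 = 2 * r := by field_simp
      have e2 : 4 * x ^ 2 / (2 * r) = 2 * x ^ 2 / r := by field_simp; ring
      rw [e1, e2]
      have : 2 * x ^ 2 / r ≤ 8 * x - 4 * r := by
        rw [div_le_iff₀ hr]
        nlinarith [mul_nonneg (sub_nonneg.2 h2) (sub_nonneg.2 h1.le)]
      linarith
    · rw [if_neg h2]
      push_neg at h2
      rw [min_eq_left h2.le]
      have e2 : 4 * x ^ 2 / (2 * r) = 2 * x ^ 2 / r := by field_simp; ring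
      have e3 : 4 * x ^ 2 / r = 2 * (2 * x ^ 2 / r) := by ring
      have e4 : 2 / r * x ^ 2 = 2 * x ^ 2 / r := by ring
      rw [e2, e3, e4]
      linarith

lemma key {x : ℝ} (hx : 0 ≤ x) (J : ℕ) :
    ∑ j ∈ Finset.Ico (-(J : ℤ)) J, (2 : ℝ) ^ (-j) * min x ((2 : ℝ) ^ (j + 1)) ^ 2 ≤ 8 * x := by
  have h1 : ∀ j : ℤ, (2 : ℝ) ^ (-j) * min x ((2 : ℝ) ^ (j + 1)) ^ 2 ≤
      Ph x ((2 : ℝ) ^ ((j + 1) + 1)) - Ph x ((2 : ℝ) ^ (j + 1)) := by
    intro j
    have hr : (0 : ℝ) < (2 : ℝ) ^ (j + 1) := by positivity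
    have e1 : (2 : ℝ) ^ ((j + 1) + 1) = 2 * (2 : ℝ) ^ (j + 1) := by
      rw [zpow_add_one₀ (by norm_num) (j + 1)]; ring
    have e2 : (2 : ℝ) ^ (-j) = 2 / (2 : ℝ) ^ (j + 1) := by
      rw [zpow_neg, zpow_add_one₀ (by norm_num)]
      field_simp
    rw [e1, e2]
    exact step hx hr
  have h2 : (Finset.Ico (-(J : ℤ)) J) = Finset.Ico (-(J : ℤ)) (-(J : ℤ) + ((2 * J : ℕ) : ℤ)) := by
    congr 1
    push_cast
    ring
  rw [h2]
  refine (Finset.sum_le_sum fun j _ => h1 j).trans ?_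
  rw [sum_telescope (fun j => Ph x ((2 : ℝ) ^ (j + 1)))]
  have h3 := Ph_nonneg hx (show (0 : ℝ) < (2 : ℝ) ^ (-(J : ℤ) + 1) by positivity)
  have h4 := Ph_le hx (show (0 : ℝ) < (2 : ℝ) ^ (-(J : ℤ) + ((2 * J : ℕ) : ℤ) + 1) by positivity)
  linarith

lemma half {x y : ℝ} (hy : 0 ≤ y) (hxy : y ≤ x) (J : ℕ) :
    ∑ j ∈ Finset.Ico (-(J : ℤ)) J,
      (2 : ℝ) ^ (-j) * (min x ((2 : ℝ) ^ (j + 1)) ^ 2 * min y ((2 : ℝ) ^ (j + 1)) ^ 2) ≤
      8 * (x * y ^ 2) := by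
  have h1 : ∀ j ∈ Finset.Ico (-(J : ℤ)) J,
      (2 : ℝ) ^ (-j) * (min x ((2 : ℝ) ^ (j + 1)) ^ 2 * min y ((2 : ℝ) ^ (j + 1)) ^ 2) ≤
      ((2 : ℝ) ^ (-j) * min x ((2 : ℝ) ^ (j + 1)) ^ 2) * y ^ 2 := by
    intro j _
    rw [← mul_assoc]
    refine mul_le_mul_of_nonneg_left ?_ (by positivity)
    have h0 : 0 ≤ min y ((2 : ℝ) ^ (j + 1)) := le_min hy (by positivity)
    exact pow_le_pow_left₀ h0 (min_le_left _ _) 2
  refine (Finset.sum_le_sum h1).trans ?_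
  rw [← Finset.sum_mul]
  have := mul_le_mul_of_nonneg_right (key (hy.trans hxy) J) (sq_nonneg y)
  linarith

end KerX

theorem ker : S_KER := by
  intro x y hx hy J
  rcases le_total y x with h | h
  · rw [max_eq_left h, min_eq_right h]
    exact KerX.half hy h J
  · rw [max_eq_right h, min_eq_left h]
    refine le_trans (le_of_eq ?_) (KerX.half hx h J)
    refine Finset.sum_congr rfl fun j _ => ?_
    ring

end Vale.Agent.P075
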