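import Mathlib
import Vale.Agent.P075b.Defs

namespace Vale.Agent.P075

open Matrix

namespace StepX

lemma sys_half {m n : Type} [Fintype m] [Fintype n] [DecidableEq n] {W : Matrix m n ℝ}
    {v : n → n → ℝ} {σ : n → ℝ} (h : Sys W v σ) :
    Sys ((1 / 2 : ℝ) • W) v (fun k => σ k / 2) where
  nn k := by have := h.nn k; positivity
  orth := h.orth
  pars := h.pars
  diag k l := by
    rw [smul_mulVec, smul_mulVec, smul_dotProduct, dotProduct_smul, h.diag k l]
    split_ifs
    · simp only [smul_eq_mul]; ring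
    · simp

lemma dd_symm {n : Type} [Fintype n] (v : n → n → ℝ) (δ : n → ℝ) (k l : n) :
    dd v δ k l = dd v δ l k := by
  unfold dd fl
  congr 1
  simp only [dotProduct]
  exact Finset.sum_congr rfl fun i _ => by ring

end StepX

theorem step (hsys : S_SYS) (hclip : S_CLIP) (hgain : S_GAIN) (heta : S_ETA) (hint : S_INT) :
    S_STEP := by
  intro ι₁ ι₂ ι₃ _ _ _ _ P Q
  have hW := hsys _ _ (col P Q)
  have key := hint (Fin 2 × Fin 2 × ι₂) (Fin 2 × ι₂)
    (fun q => sv (col (blk P q.1 q.2.1) (blk Q (q.1 + q.2.1) q.2.1)) q.2.2)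
    (sv (col P Q)) (dd (sb (col P Q)) sgn) (fun q => (hsys _ _ _).nn _) (fun k => hW.nn k)
    (fun k l => sq_nonneg _) (fun k l => StepX.dd_symm _ _ _ _) ?_
  · refine le_trans (le_of_eq ?_) (le_trans key (le_of_eq ?_))
    · rfl
    · simp only [Fintype.sum_prod_type, Psi]
  · intro s hs
    have hc : ∀ i j : Fin 2, ∃ h : Matrix (ι₁ ⊕ ι₃) ι₂ ℝ, (∀ u, nsq (h *ᵥ u) ≤ s ^ 2 * nsq u) ∧
        fr (col (blk P i j) (blk Q (i + j) j) - h) ≤
          ∑ k, (max (sv (col (blk P i j) (blk Q (i + j) j)) k - s) 0) ^ 2 :=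
      fun i j => hclip _ _ _ _ _ (hsys _ _ _) s hs
    choose h h1 h2 using hc
    obtain ⟨η, hη1, hη2⟩ := heta ι₁ ι₂ ι₃ P Q s h h1
    have hg := hgain _ _ _ _ _ (StepX.sys_half hW) sgn
      (by intro x; rcases x with ⟨i, b⟩; fin_cases i <;> simp [sgn, sg]) s hs η hη1
    rw [hη2] at hg
    have e1 : ∀ y : ℝ, (2 * s ≤ y / 2) = (4 * s ≤ y) := by
      intro y
      apply propext
      constructor <;> intro h <;> linarith
    simp only [e1] at hg
    refine le_trans hg ?_
    rw [Fintype.sum_prod_type]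
    refine mul_le_mul_of_nonneg_left ?_ (by norm_num)
    refine Finset.sum_le_sum fun i _ => ?_
    rw [Fintype.sum_prod_type]
    exact Finset.sum_le_sum fun j _ => h2 i j

end Vale.Agent.P075
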