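import Vale.Agent.P075b.Defs

/-!
# P075, module TRI

The trilinear form with signs is bounded by the three vertex energies: telescoping of the
clipped matrices over dyadic heights.
-/

open Matrix

namespace Vale.Agent.P075

namespace TriX

/-- the form -/
noncomputable def tt {X Y Z : Type} [Fintype X] [DecidableEq X] [Fintype Y] [DecidableEq Y]
    [Fintype Z] [DecidableEq Z] (δx : X → ℝ) (δy : Y → ℝ) (δz : Z → ℝ)
    (A : Matrix X Y ℝ) (B : Matrix Y Z ℝ) (C : Matrix Z X ℝ) : ℝ :=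
  (A * diagonal δy * B * diagonal δz * C * diagonal δx).trace

/-- energy at height `r` -/
noncomputable def KK {m n : Type} [Fintype m] [Fintype n] [DecidableEq n]
    (W : Matrix m n ℝ) (δ : n → ℝ) (r : ℝ) : ℝ :=
  ∑ k, ∑ l, dd (sb W) δ k l * (min (sv W k) r ^ 2 * min (sv W l) r ^ 2)

lemma dd_nonneg {n : Type} [Fintype n] (v : n → n → ℝ) (δ : n → ℝ) (k l : n) :
    0 ≤ dd v δ k l := sq_nonneg _

lemma fr_nonneg {m n : Type} [Fintype m] [Fintype n] (W : Matrix m n ℝ) : 0 ≤ fr W :=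
  Finset.sum_nonneg (fun _ _ => Finset.sum_nonneg (fun _ _ => sq_nonneg _))

lemma abs_trace_mul_le {X Y : Type} [Fintype X] [Fintype Y]
    (M : Matrix X Y ℝ) (N : Matrix Y X ℝ) :
    |(M * N).trace| ≤ (1 / 2) * (fr M + fr N) := by
  have h1 : (M * N).trace = ∑ i, ∑ j, M i j * N j i := by
    simp [Matrix.trace, Matrix.mul_apply]
  have h2 : fr N = ∑ i, ∑ j, N j i ^ 2 := by
    unfold fr
    rw [Finset.sum_comm]
  rw [h1, h2]
  unfold fr
  rw [← Finset.sum_add_distrib, Finset.mul_sum]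
  refine (Finset.abs_sum_le_sum_abs _ _).trans (Finset.sum_le_sum (fun i _ => ?_))
  rw [← Finset.sum_add_distrib, Finset.mul_sum]
  refine (Finset.abs_sum_le_sum_abs _ _).trans (Finset.sum_le_sum (fun j _ => ?_))
  rw [abs_le]
  constructor <;> nlinarith [sq_nonneg (M i j + N j i), sq_nonneg (M i j - N j i)]

lemma fr_mul_diag {X Y : Type} [Fintype X] [Fintype Y] [DecidableEq Y]
    (M : Matrix X Y ℝ) (δ : Y → ℝ) (hδ : ∀ i, δ i ^ 2 = 1) : fr (M * diagonal δ) = fr M := by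
  unfold fr
  apply Finset.sum_congr rfl
  intro i _
  apply Finset.sum_congr rfl
  intro j _
  rw [Matrix.mul_diagonal, mul_pow, hδ, mul_one]

lemma nsq_nonneg {n : Type} [Fintype n] (u : n → ℝ) : 0 ≤ nsq u :=
  Finset.sum_nonneg (fun _ _ => sq_nonneg _)

lemma nsq_col {m₁ m₂ n : Type} [Fintype m₁] [Fintype m₂] [Fintype n]
    (P : Matrix m₁ n ℝ) (Q : Matrix m₂ n ℝ) (u : n → ℝ) :
    nsq (col P Q *ᵥ u) = nsq (P *ᵥ u) + nsq (Q *ᵥ u) := by
  unfold nsq col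
  rw [Matrix.fromRows_mulVec, Fintype.sum_sum_type]
  simp

lemma cls_left {m₁ m₂ p n : Type} [Fintype m₁] [Fintype m₂] [Fintype p] [Fintype n]
    {r s : ℝ} (hr : 0 ≤ r) (hrs : r ≤ s) {P : Matrix m₁ n ℝ} (Q : Matrix m₂ n ℝ)
    {G : Matrix p n ℝ} (h : Cls r P G) : Cls s (col P Q) G := by
  refine ⟨fun u => (h.1 u).trans ?_, fun u => ?_⟩
  · exact mul_le_mul_of_nonneg_right (pow_le_pow_left₀ hr hrs 2) (nsq_nonneg u)
  · rw [nsq_col]
    linarith [h.2 u, nsq_nonneg (Q *ᵥ u)]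

lemma cls_right {m₁ m₂ p n : Type} [Fintype m₁] [Fintype m₂] [Fintype p] [Fintype n]
    {r s : ℝ} (hr : 0 ≤ r) (hrs : r ≤ s) (P : Matrix m₁ n ℝ) {Q : Matrix m₂ n ℝ}
    {G : Matrix p n ℝ} (h : Cls r Q G) : Cls s (col P Q) G := by
  refine ⟨fun u => (h.1 u).trans ?_, fun u => ?_⟩
  · exact mul_le_mul_of_nonneg_right (pow_le_pow_left₀ hr hrs 2) (nsq_nonneg u)
  · rw [nsq_col]
    linarith [h.2 u, nsq_nonneg (P *ᵥ u)]

/-- One term of the telescoping sum. -/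
lemma term (hSYS : S_SYS) (hCOMP : S_COMP)
    {X Y Z : Type} [Fintype X] [DecidableEq X] [Fintype Y] [DecidableEq Y]
    [Fintype Z] [DecidableEq Z] (A : Matrix X Y ℝ) (B : Matrix Y Z ℝ) (C : Matrix Z X ℝ)
    (δx : X → ℝ) (δy : Y → ℝ) (δz : Z → ℝ) (hz : ∀ i, δz i ^ 2 = 1)
    (s : ℝ) (hs : 0 < s)
    (G₁ : Matrix X Y ℝ) (G₂ : Matrix Y Y ℝ) (B' : Matrix Y Z ℝ) (C' : Matrix Z X ℝ)
    (h1 : Cls s Aᵀ G₁ᵀ) (h2 : Cls s A G₂) (hB : Cls s Bᵀ B'ᵀ) (hC : Cls s C C') :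
    |tt δx δy δz (G₁ * G₂) B' C'| ≤ 2 * (KK (col A Bᵀ) δy s + KK (col C Aᵀ) δx s) := by
  have e1 : tt δx δy δz (G₁ * G₂) B' C'
      = ((G₂ * diagonal δy * B' * diagonal δz) * (C' * diagonal δx * G₁)).trace := by
    unfold tt
    have : G₁ * G₂ * diagonal δy * B' * diagonal δz * C' * diagonal δx
        = G₁ * ((G₂ * diagonal δy * B' * diagonal δz) * (C' * diagonal δx)) := by
      simp only [Matrix.mul_assoc]
    rw [this, Matrix.trace_mul_comm]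
    simp only [Matrix.mul_assoc]
  rw [e1]
  refine (abs_trace_mul_le _ _).trans ?_
  rw [fr_mul_diag _ _ hz]
  have k1 := hCOMP (X ⊕ Z) Y Y Z (col A Bᵀ) (sb (col A Bᵀ)) (sv (col A Bᵀ)) (hSYS _ _ _)
    δy s hs G₂ B'ᵀ (cls_left hs.le le_rfl _ h2) (cls_right hs.le le_rfl _ hB)
  have k2 := hCOMP (Z ⊕ Y) X Z Y (col C Aᵀ) (sb (col C Aᵀ)) (sv (col C Aᵀ)) (hSYS _ _ _)
    δx s hs C' G₁ᵀ (cls_left hs.le le_rfl _ hC) (cls_right hs.le le_rfl _ h1)
  rw [Matrix.transpose_transpose] at k1 k2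
  unfold KK
  linarith

/-- cyclic symmetry of the form -/
lemma tt_cyc {X Y Z : Type} [Fintype X] [DecidableEq X] [Fintype Y] [DecidableEq Y]
    [Fintype Z] [DecidableEq Z] (δx : X → ℝ) (δy : Y → ℝ) (δz : Z → ℝ)
    (A : Matrix X Y ℝ) (B : Matrix Y Z ℝ) (C : Matrix Z X ℝ) :
    tt δx δy δz A B C = tt δy δz δx B C A := by
  unfold tt
  have : A * diagonal δy * B * diagonal δz * C * diagonal δx
      = (A * diagonal δy) * (B * diagonal δz * C * diagonal δx) := by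
    simp only [Matrix.mul_assoc]
  rw [this, Matrix.trace_mul_comm]
  simp only [Matrix.mul_assoc]

lemma tt_sub1 {X Y Z : Type} [Fintype X] [DecidableEq X] [Fintype Y] [DecidableEq Y]
    [Fintype Z] [DecidableEq Z] (δx : X → ℝ) (δy : Y → ℝ) (δz : Z → ℝ)
    (A A' : Matrix X Y ℝ) (B : Matrix Y Z ℝ) (C : Matrix Z X ℝ) :
    tt δx δy δz (A - A') B C = tt δx δy δz A B C - tt δx δy δz A' B C := by
  unfold tt
  simp only [Matrix.sub_mul, Matrix.trace_sub]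

lemma tt_smul1 {X Y Z : Type} [Fintype X] [DecidableEq X] [Fintype Y] [DecidableEq Y]
    [Fintype Z] [DecidableEq Z] (δx : X → ℝ) (δy : Y → ℝ) (δz : Z → ℝ) (c : ℝ)
    (A : Matrix X Y ℝ) (B : Matrix Y Z ℝ) (C : Matrix Z X ℝ) :
    tt δx δy δz (c • A) B C = c * tt δx δy δz A B C := by
  unfold tt
  simp only [Matrix.smul_mul, Matrix.trace_smul, smul_eq_mul]

lemma telescope (f : ℤ → ℝ) (a : ℤ) (n : ℕ) :
    f (a + n) - f a = ∑ j ∈ Finset.Ico a (a + n), (f (j + 1) - f j) := by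
  induction n with
  | zero => simp
  | succ n ih =>
      have : Finset.Ico a (a + ((n + 1 : ℕ) : ℤ)) = insert (a + (n : ℤ)) (Finset.Ico a (a + n)) := by
        ext x
        simp only [Finset.mem_Ico, Finset.mem_insert]
        push_cast
        omega
      rw [this, Finset.sum_insert (by simp), ← ih]
      push_cast
      rw [← add_assoc]
      ring

/-- clipped families -/
def Fam {m n : Type} [Fintype m] [DecidableEq m] [Fintype n] [DecidableEq n]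
    (A : Matrix m n ℝ) (c : ℝ → Matrix m n ℝ) : Prop :=
  (∀ r, 0 < r → Cls r A (c r) ∧ Cls r Aᵀ (c r)ᵀ ∧
    ∃ (G₁ : Matrix m n ℝ) (G₂ : Matrix n n ℝ), G₁ * G₂ = r • (c (2 * r) - c r) ∧
      Cls r A G₂ ∧ Cls r Aᵀ G₁ᵀ) ∧
  ∃ R : ℝ, ∀ r, R ≤ r → c r = A

lemma cls_mono {m p n : Type} [Fintype m] [Fintype p] [Fintype n]
    {r s : ℝ} (hr : 0 ≤ r) (hrs : r ≤ s) {P : Matrix m n ℝ}
    {G : Matrix p n ℝ} (h : Cls r P G) : Cls s P G :=
  ⟨fun u => (h.1 u).trans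
    (mul_le_mul_of_nonneg_right (pow_le_pow_left₀ hr hrs 2) (nsq_nonneg u)), h.2⟩

/-- the first difference term -/
lemma diff1 (hSYS : S_SYS) (hCOMP : S_COMP)
    {X Y Z : Type} [Fintype X] [DecidableEq X] [Fintype Y] [DecidableEq Y]
    [Fintype Z] [DecidableEq Z] (A : Matrix X Y ℝ) (B : Matrix Y Z ℝ) (C : Matrix Z X ℝ)
    (δx : X → ℝ) (δy : Y → ℝ) (δz : Z → ℝ) (hz : ∀ i, δz i ^ 2 = 1)
    (cA : ℝ → Matrix X Y ℝ) (hA : Fam A cA) (r : ℝ) (hr : 0 < r)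
    (B' : Matrix Y Z ℝ) (C' : Matrix Z X ℝ)
    (hB : Cls (2 * r) Bᵀ B'ᵀ) (hC : Cls (2 * r) C C') :
    |tt δx δy δz (cA (2 * r)) B' C' - tt δx δy δz (cA r) B' C'|
      ≤ r⁻¹ * (2 * (KK (col A Bᵀ) δy (2 * r) + KK (col C Aᵀ) δx (2 * r))) := by
  obtain ⟨-, -, G₁, G₂, hG, h2, h1⟩ := hA.1 r hr
  have h := term hSYS hCOMP A B C δx δy δz hz (2 * r) (by positivity) G₁ G₂ B' C'
    (cls_mono hr.le (by linarith) h1) (cls_mono hr.le (by linarith) h2) hB hC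
  rw [hG, tt_smul1, tt_sub1, abs_mul, abs_of_pos hr] at h
  rw [inv_mul_eq_div, le_div_iff₀ hr]
  linarith

lemma entry_le {m p n : Type} [Fintype m] [Fintype p] [Fintype n] [DecidableEq n]
    {r : ℝ} (hr : 0 ≤ r) {P : Matrix m n ℝ} {G : Matrix p n ℝ} (h : Cls r P G) (i : p) (j : n) :
    |G i j| ≤ r := by
  have h1 := h.1 (Pi.single j 1)
  have h2 : nsq (Pi.single j (1 : ℝ) : n → ℝ) = 1 := by
    unfold nsq
    rw [Finset.sum_eq_single j]
    · simp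
    · intro b _ hb
      simp [hb]
    · simp
  rw [h2, mul_one] at h1
  have h3 : G i j ^ 2 ≤ nsq (G *ᵥ (Pi.single j (1 : ℝ))) := by
    unfold nsq
    have : G i j ^ 2 = (G *ᵥ (Pi.single j (1 : ℝ))) i ^ 2 := by simp
    rw [this]
    exact Finset.single_le_sum (f := fun i => (G *ᵥ (Pi.single j (1 : ℝ))) i ^ 2)
      (fun _ _ => sq_nonneg _) (Finset.mem_univ i)
  exact abs_le_of_sq_le_sq (h3.trans h1) hr

lemma fam_tendsto {m n : Type} [Fintype m] [DecidableEq m] [Fintype n] [DecidableEq n]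
    (A : Matrix m n ℝ) (c : ℝ → Matrix m n ℝ) (hA : Fam A c) :
    Filter.Tendsto (fun J : ℕ => c ((2 : ℝ) ^ (-(J : ℤ)))) Filter.atTop (nhds 0) := by
  have h0 : Filter.Tendsto (fun J : ℕ => (2 : ℝ) ^ (-(J : ℤ))) Filter.atTop (nhds 0) := by
    have : (fun J : ℕ => (2 : ℝ) ^ (-(J : ℤ))) = fun J : ℕ => (2⁻¹ : ℝ) ^ J := by
      ext J
      rw [_root_.zpow_neg, _root_.zpow_natCast, inv_pow]
    rw [this]
    exact tendsto_pow_atTop_nhds_zero_of_lt_one (by norm_num) (by norm_num)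
  refine tendsto_pi_nhds.2 (fun i => tendsto_pi_nhds.2 (fun j => ?_))
  refine squeeze_zero_norm (fun J => ?_) h0
  rw [Real.norm_eq_abs]
  exact entry_le (by positivity) (hA.1 _ (by positivity)).1 i j

lemma tt_tendsto {X Y Z : Type} [Fintype X] [DecidableEq X] [Fintype Y] [DecidableEq Y]
    [Fintype Z] [DecidableEq Z] (δx : X → ℝ) (δy : Y → ℝ) (δz : Z → ℝ)
    (a : ℕ → Matrix X Y ℝ) (b : ℕ → Matrix Y Z ℝ) (c : ℕ → Matrix Z X ℝ)
    (ha : Filter.Tendsto a Filter.atTop (nhds 0)) (hb : Filter.Tendsto b Filter.atTop (nhds 0))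
    (hc : Filter.Tendsto c Filter.atTop (nhds 0)) :
    Filter.Tendsto (fun J => tt δx δy δz (a J) (b J) (c J)) Filter.atTop (nhds 0) := by
  have hcont : Continuous (fun p : Matrix X Y ℝ × Matrix Y Z ℝ × Matrix Z X ℝ =>
      tt δx δy δz p.1 p.2.1 p.2.2) := by
    unfold tt
    apply Continuous.matrix_trace
    fun_prop
  have h := (hcont.tendsto (0, 0, 0)).comp (ha.prodMk_nhds (hb.prodMk_nhds hc))
  have h0 : tt δx δy δz (0 : Matrix X Y ℝ) (0 : Matrix Y Z ℝ) (0 : Matrix Z X ℝ) = 0 := by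
    unfold tt
    simp
  simpa [h0, Function.comp_def] using h

lemma sum_KK (hKER : S_KER) {m n : Type} [Fintype m] [Fintype n] [DecidableEq n]
    (W : Matrix m n ℝ) (δ : n → ℝ) (hsv : ∀ k, 0 ≤ sv W k) (J : ℕ) :
    ∑ j ∈ Finset.Ico (-(J : ℤ)) J, (2 : ℝ) ^ (-j) * KK W δ ((2 : ℝ) ^ (j + 1)) ≤ 8 * NN W δ := by
  unfold KK NN
  simp only [Finset.mul_sum]
  rw [Finset.sum_comm]
  apply Finset.sum_le_sum
  intro k _
  rw [Finset.sum_comm]
  apply Finset.sum_le_sum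
  intro l _
  have h := hKER (sv W k) (sv W l) (hsv k) (hsv l) J
  have h2 := mul_le_mul_of_nonneg_left h (dd_nonneg (sb W) δ k l)
  rw [Finset.mul_sum] at h2
  calc ∑ j ∈ Finset.Ico (-(J : ℤ)) J, (2 : ℝ) ^ (-j) * (dd (sb W) δ k l *
          (min (sv W k) ((2 : ℝ) ^ (j + 1)) ^ 2 * min (sv W l) ((2 : ℝ) ^ (j + 1)) ^ 2))
      = ∑ j ∈ Finset.Ico (-(J : ℤ)) J, dd (sb W) δ k l * ((2 : ℝ) ^ (-j) *
          (min (sv W k) ((2 : ℝ) ^ (j + 1)) ^ 2 * min (sv W l) ((2 : ℝ) ^ (j + 1)) ^ 2)) := by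
        apply Finset.sum_congr rfl
        intro j _
        ring
    _ ≤ _ := h2
    _ = _ := by ring

end TriX

open TriX in
theorem tri (hSYS : S_SYS) (hCLS : S_CLS) (hCOMP : S_COMP) (hKER : S_KER) : S_TRI := by
  intro X Y Z _ _ _ _ _ _ A B C δx δy δz hx hy hz
  obtain ⟨cA, hA⟩ := hCLS X Y A
  obtain ⟨cB, hB⟩ := hCLS Y Z B
  obtain ⟨cC, hC⟩ := hCLS Z X C
  change Fam A cA at hA
  change Fam B cB at hB
  change Fam C cC at hC
  have key : ∀ J : ℕ, |tt δx δy δz (cA ((2 : ℝ) ^ (J : ℤ))) (cB ((2 : ℝ) ^ (J : ℤ)))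
        (cC ((2 : ℝ) ^ (J : ℤ)))| ≤
      |tt δx δy δz (cA ((2 : ℝ) ^ (-(J : ℤ)))) (cB ((2 : ℝ) ^ (-(J : ℤ))))
        (cC ((2 : ℝ) ^ (-(J : ℤ))))| +
      32 * (NN (col A Bᵀ) δy + NN (col B Cᵀ) δz + NN (col C Aᵀ) δx) := by
    intro J
    set f : ℤ → ℝ := fun j => tt δx δy δz (cA ((2 : ℝ) ^ j)) (cB ((2 : ℝ) ^ j))
      (cC ((2 : ℝ) ^ j)) with hf
    have hstep : ∀ j : ℤ, |f (j + 1) - f j| ≤ 4 * ((2 : ℝ) ^ (-j) *
        KK (col A Bᵀ) δy ((2 : ℝ) ^ (j + 1)) + (2 : ℝ) ^ (-j) *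
        KK (col B Cᵀ) δz ((2 : ℝ) ^ (j + 1)) + (2 : ℝ) ^ (-j) *
        KK (col C Aᵀ) δx ((2 : ℝ) ^ (j + 1))) := by
      intro j
      set r : ℝ := (2 : ℝ) ^ j with hr
      have hr0 : 0 < r := by positivity
      have h2r : (2 : ℝ) ^ (j + 1) = 2 * r := by
        rw [zpow_add_one₀ (by norm_num), mul_comm]
      have hinv : (2 : ℝ) ^ (-j) = r⁻¹ := by rw [_root_.zpow_neg]
      have h2r0 : 0 < 2 * r := by positivity
      simp only [hf]
      rw [h2r, hinv]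
      have cB1 : Cls (2 * r) Bᵀ (cB (2 * r))ᵀ := (hB.1 _ h2r0).2.1
      have cC1 : Cls (2 * r) C (cC (2 * r)) := (hC.1 _ h2r0).1
      have cC1' : Cls (2 * r) Cᵀ (cC (2 * r))ᵀ := (hC.1 _ h2r0).2.1
      have cA0 : Cls (2 * r) A (cA r) := cls_mono hr0.le (by linarith) (hA.1 _ hr0).1
      have cA0' : Cls (2 * r) Aᵀ (cA r)ᵀ := cls_mono hr0.le (by linarith) (hA.1 _ hr0).2.1
      have cB0 : Cls (2 * r) B (cB r) := cls_mono hr0.le (by linarith) (hB.1 _ hr0).1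
      have d1 := diff1 hSYS hCOMP A B C δx δy δz hz cA hA r hr0 _ _ cB1 cC1
      have d2 := diff1 hSYS hCOMP B C A δy δz δx hx cB hB r hr0 _ _ cC1' cA0
      have d3 := diff1 hSYS hCOMP C A B δz δx δy hy cC hC r hr0 _ _ cA0' cB0
      rw [← tt_cyc δx δy δz, ← tt_cyc δx δy δz] at d2
      rw [tt_cyc δz δx δy, tt_cyc δz δx δy] at d3
      have hsplit : tt δx δy δz (cA (2 * r)) (cB (2 * r)) (cC (2 * r))
          - tt δx δy δz (cA r) (cB r) (cC r)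
          = (tt δx δy δz (cA (2 * r)) (cB (2 * r)) (cC (2 * r))
              - tt δx δy δz (cA r) (cB (2 * r)) (cC (2 * r)))
            + (tt δx δy δz (cA r) (cB (2 * r)) (cC (2 * r))
              - tt δx δy δz (cA r) (cB r) (cC (2 * r)))
            + (tt δx δy δz (cA r) (cB r) (cC (2 * r))
              - tt δx δy δz (cA r) (cB r) (cC r)) := by ring
      rw [hsplit]
      refine (abs_add_le _ _).trans ?_
      have := abs_add_le (tt δx δy δz (cA (2 * r)) (cB (2 * r)) (cC (2 * r))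
              - tt δx δy δz (cA r) (cB (2 * r)) (cC (2 * r)))
            (tt δx δy δz (cA r) (cB (2 * r)) (cC (2 * r))
              - tt δx δy δz (cA r) (cB r) (cC (2 * r)))
      linarith
    have htel := telescope f (-(J : ℤ)) (2 * J)
    have hJ : -(J : ℤ) + ((2 * J : ℕ) : ℤ) = (J : ℤ) := by push_cast; ring
    rw [hJ] at htel
    have hsum : |f J - f (-(J : ℤ))| ≤
        32 * (NN (col A Bᵀ) δy + NN (col B Cᵀ) δz + NN (col C Aᵀ) δx) := by
      rw [htel]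
      refine (Finset.abs_sum_le_sum_abs _ _).trans ?_
      refine (Finset.sum_le_sum (fun j _ => hstep j)).trans ?_
      rw [← Finset.mul_sum, Finset.sum_add_distrib, Finset.sum_add_distrib]
      have s1 := sum_KK hKER (col A Bᵀ) δy (hSYS _ _ _).nn J
      have s2 := sum_KK hKER (col B Cᵀ) δz (hSYS _ _ _).nn J
      have s3 := sum_KK hKER (col C Aᵀ) δx (hSYS _ _ _).nn J
      linarith
    have h1 : |f J| ≤ |f (-(J : ℤ))| + |f J - f (-(J : ℤ))| := by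
      have := abs_add_le (f (-(J : ℤ))) (f J - f (-(J : ℤ)))
      rwa [add_sub_cancel] at this
    exact h1.trans (by linarith)
  obtain ⟨RA, hRA⟩ := hA.2
  obtain ⟨RB, hRB⟩ := hB.2
  obtain ⟨RC, hRC⟩ := hC.2
  have hev : ∀ᶠ J : ℕ in Filter.atTop, |tt δx δy δz A B C| ≤
      |tt δx δy δz (cA ((2 : ℝ) ^ (-(J : ℤ)))) (cB ((2 : ℝ) ^ (-(J : ℤ))))
        (cC ((2 : ℝ) ^ (-(J : ℤ))))| +
      32 * (NN (col A Bᵀ) δy + NN (col B Cᵀ) δz + NN (col C Aᵀ) δx) := by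
    have hpow : Filter.Tendsto (fun J : ℕ => (2 : ℝ) ^ (J : ℤ)) Filter.atTop Filter.atTop := by
      simp only [zpow_natCast]
      exact tendsto_pow_atTop_atTop_of_one_lt (by norm_num)
    filter_upwards [hpow.eventually_ge_atTop RA, hpow.eventually_ge_atTop RB,
      hpow.eventually_ge_atTop RC] with J h1 h2 h3
    have := key J
    rwa [hRA _ h1, hRB _ h2, hRC _ h3] at this
  have hlim := (tt_tendsto δx δy δz _ _ _ (fam_tendsto A cA hA) (fam_tendsto B cB hB)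
    (fam_tendsto C cC hC)).abs.add_const
      (32 * (NN (col A Bᵀ) δy + NN (col B Cᵀ) δz + NN (col C Aᵀ) δx))
  have := ge_of_tendsto hlim hev
  simpa [tt] using this

end Vale.Agent.P075
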