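import Vale.Agent.P075b.Local
import Vale.Agent.P075b.Clip
import Vale.Agent.P075b.Gain
import Vale.Agent.P075b.Eta
import Vale.Agent.P075b.Step
import Vale.Agent.P075b.Comp
import Vale.Agent.P075b.Ker
import Vale.Agent.P075b.Int
import Vale.Agent.P075b.Tri

namespace Vale.Agent.P075

theorem step_all : S_STEP := step sys clip gain eta int

theorem tri_all : S_TRI := tri sys (cls sys) comp ker

/-- the array inequality, unconditional -/
theorem array (R : ℕ) (f0 f1 f2 : ℕ → ℕ → ℝ) :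
    ∑ j ∈ Finset.range R, ((2 : ℝ) ^ (j + 1))⁻¹ *
      ∑ X ∈ Finset.range (2 ^ (R - (j + 1))), ∑ Y ∈ Finset.range (2 ^ (R - (j + 1))),
        |P075R.JN f0 f1 f2 j X Y (X ^^^ Y)| ≤
      66048 * (P075R.S3 R f0 * P075R.S3 R f1 * P075R.S3 R f2) ^ (1 / 3 : ℝ) := by
  have h := array_ineq step_all tri_all R f0 f1 f2
  norm_num at h ⊢
  exact h

end Vale.Agent.P075
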