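import Vale.Agent.P075b.Defs

namespace Vale.Agent.P075

open Matrix

theorem nsq_eq_dot {n : Type} [Fintype n] (u : n → ℝ) : nsq u = u ⬝ᵥ u := by
  simp [nsq, dotProduct, sq]

theorem nsq_nonneg {n : Type} [Fintype n] (u : n → ℝ) : 0 ≤ nsq u :=
  Finset.sum_nonneg fun _ _ => sq_nonneg _

theorem fr_nonneg {m n : Type} [Fintype m] [Fintype n] (W : Matrix m n ℝ) : 0 ≤ fr W :=
  Finset.sum_nonneg fun _ _ => Finset.sum_nonneg fun _ _ => sq_nonneg _

theorem sb_dot {m n : Type} [Fintype m] [Fintype n] [DecidableEq n]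
    (W : Matrix m n ℝ) (k : n) (u : n → ℝ) :
    sb W k ⬝ᵥ u =
      inner ℝ ((isHermitian_conjTranspose_mul_self W).eigenvectorBasis k) (WithLp.toLp 2 u) := by
  simp [sb, dotProduct, PiLp.inner_apply, mul_comm]

/-- BASE (a) -/
theorem sys : S_SYS := by
  intro m n _ _ _ W
  set b := (isHermitian_conjTranspose_mul_self W).eigenvectorBasis with hb
  have hval : ∀ l, (WithLp.toLp 2 (sb W l) : EuclideanSpace ℝ n) = b l := by
    intro l
    ext i
    simp [sb, hb]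
  have horth : ∀ k l, sb W k ⬝ᵥ sb W l = if k = l then 1 else 0 := by
    intro k l
    rw [sb_dot, hval, ← hb]
    exact (orthonormal_iff_ite.1 b.orthonormal) k l
  refine ⟨fun k => Real.sqrt_nonneg _, horth, ?_, ?_⟩
  · intro u
    have h := b.sum_sq_norm_inner_right (WithLp.toLp 2 u)
    have h2 : ‖(WithLp.toLp 2 u : EuclideanSpace ℝ n)‖ ^ 2 = nsq u := by
      rw [EuclideanSpace.norm_sq_eq]
      simp [nsq]
    rw [← h2, ← h]
    refine Finset.sum_congr rfl fun k _ => ?_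
    rw [sb_dot, Real.norm_eq_abs, sq_abs]
  · intro k l
    have h1 : (W *ᵥ sb W k) ⬝ᵥ (W *ᵥ sb W l) = sb W k ⬝ᵥ ((Wᴴ * W) *ᵥ sb W l) := by
      rw [dotProduct_mulVec, ← mulVec_mulVec, dotProduct_mulVec (sb W k), ]
      rw [← dotProduct_mulVec, ← dotProduct_mulVec, dotProduct_mulVec (sb W k), vecMul_conjTranspose]
      simp
    have h2 : (Wᴴ * W) *ᵥ sb W l =
        (isHermitian_conjTranspose_mul_self W).eigenvalues l • sb W l := by
      have := (isHermitian_conjTranspose_mul_self W).mulVec_eigenvectorBasis l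
      exact this
    rw [h1, h2, dotProduct_smul, horth]
    have h3 : 0 ≤ (isHermitian_conjTranspose_mul_self W).eigenvalues l :=
      (posSemidef_conjTranspose_mul_self W).eigenvalues_nonneg l
    by_cases hkl : k = l
    · subst hkl
      rw [if_pos rfl, if_pos rfl, smul_eq_mul, mul_one]
      exact (Real.sq_sqrt h3).symm
    · simp [hkl]


section basis

variable {m n p : Type} [Fintype m] [Fintype n] [DecidableEq n] [Fintype p]

/-- expansion in an orthonormal basis -/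
theorem expand {v : n → n → ℝ} (ho : ∀ k l, v k ⬝ᵥ v l = if k = l then 1 else 0)
    (u : n → ℝ) : ∑ k, (v k ⬝ᵥ u) • v k = u := by
  have hV : (Matrix.of v) * (Matrix.of v)ᵀ = 1 := by
    ext k l
    rw [mul_apply, one_apply, ← ho k l]
    rfl
  have hV' : (Matrix.of v)ᵀ * (Matrix.of v) = 1 := mul_eq_one_comm.1 hV
  have h1 : (Matrix.of v)ᵀ *ᵥ ((Matrix.of v) *ᵥ u) = u := by
    rw [mulVec_mulVec, hV', one_mulVec]
  conv_rhs => rw [← h1]
  ext i
  simp only [Finset.sum_apply, Pi.smul_apply, smul_eq_mul, mulVec, dotProduct, transpose_apply,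
    of_apply]
  exact Finset.sum_congr rfl fun k _ => mul_comm _ _

theorem parseval {v : n → n → ℝ} (ho : ∀ k l, v k ⬝ᵥ v l = if k = l then 1 else 0)
    (u w : n → ℝ) : ∑ k, (v k ⬝ᵥ u) * (v k ⬝ᵥ w) = u ⬝ᵥ w := by
  conv_rhs => rw [← expand ho u]
  rw [sum_dotProduct]
  exact Finset.sum_congr rfl fun k _ => by rw [smul_dotProduct, smul_eq_mul]

theorem nsq_sum {v : n → n → ℝ} (ho : ∀ k l, v k ⬝ᵥ v l = if k = l then 1 else 0)
    (u : n → ℝ) : ∑ k, (v k ⬝ᵥ u) ^ 2 = nsq u := by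
  rw [nsq_eq_dot, ← parseval ho u u]
  exact Finset.sum_congr rfl fun k _ => sq _

/-- BASE (b) -/
theorem fr_eq : S_FR := by
  intro m n _ _ _ W v ho
  have h : ∀ i, ∑ j, W i j ^ 2 = ∑ k, ((W *ᵥ v k) i) ^ 2 := by
    intro i
    have := nsq_sum ho (W i)
    rw [show ∑ j, W i j ^ 2 = nsq (W i) from rfl, ← this]
    refine Finset.sum_congr rfl fun k _ => ?_
    rw [mulVec, dotProduct_comm]
  unfold fr nsq
  rw [Finset.sum_congr rfl fun i _ => h i, Finset.sum_comm]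

/-- spectral multiplier `∑ f_k v_k v_kᵀ` -/
noncomputable def mul' (v : n → n → ℝ) (f : n → ℝ) : Matrix n n ℝ :=
  fun i j => ∑ k, f k * (v k i * v k j)

theorem mul'_mulVec (v : n → n → ℝ) (f : n → ℝ) (u : n → ℝ) :
    mul' v f *ᵥ u = ∑ k, (f k * (v k ⬝ᵥ u)) • v k := by
  ext i
  simp only [mul', mulVec, dotProduct, Finset.sum_apply, Pi.smul_apply, smul_eq_mul,
    Finset.sum_mul, Finset.mul_sum]
  rw [Finset.sum_comm]
  exact Finset.sum_congr rfl fun k _ => Finset.sum_congr rfl fun j _ => by ring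

theorem mul'_transpose (v : n → n → ℝ) (f : n → ℝ) : (mul' v f)ᵀ = mul' v f := by
  ext i j
  simp only [mul', transpose_apply]
  exact Finset.sum_congr rfl fun k _ => by ring

theorem dot_mul' {v : n → n → ℝ} (ho : ∀ k l, v k ⬝ᵥ v l = if k = l then 1 else 0)
    (f : n → ℝ) (u : n → ℝ) (l : n) : v l ⬝ᵥ (mul' v f *ᵥ u) = f l * (v l ⬝ᵥ u) := by
  rw [mul'_mulVec, dotProduct_sum, Finset.sum_eq_single l]
  · rw [dotProduct_smul, ho, if_pos rfl, smul_eq_mul, mul_one]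
  · intro k _ hk
    rw [dotProduct_smul, ho, if_neg (Ne.symm hk), smul_zero]
  · intro h
    exact absurd (Finset.mem_univ l) h

theorem mul'_mul {v : n → n → ℝ} (ho : ∀ k l, v k ⬝ᵥ v l = if k = l then 1 else 0)
    (f g : n → ℝ) : mul' v f * mul' v g = mul' v (fun k => f k * g k) := by
  ext i j
  have h := congrFun (mul'_mulVec v f (fun a => mul' v g a j)) i
  have h1 : (mul' v f * mul' v g) i j = (mul' v f *ᵥ (fun a => mul' v g a j)) i := rfl
  rw [h1, h]
  have h2 : ∀ k, v k ⬝ᵥ (fun a => mul' v g a j) = g k * v k j := by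
    intro k
    have h3 : (fun a => mul' v g a j) = mul' v g *ᵥ (Pi.single j 1) := by
      ext a
      simp
    rw [h3, dot_mul' ho]
    simp
  simp only [Finset.sum_apply, Pi.smul_apply, smul_eq_mul, h2]
  unfold mul'
  exact Finset.sum_congr rfl fun k _ => by ring

theorem nsq_mul' {v : n → n → ℝ} (ho : ∀ k l, v k ⬝ᵥ v l = if k = l then 1 else 0)
    (f : n → ℝ) (u : n → ℝ) : nsq (mul' v f *ᵥ u) = ∑ k, f k ^ 2 * (v k ⬝ᵥ u) ^ 2 := by
  rw [← nsq_sum ho]
  exact Finset.sum_congr rfl fun k _ => by rw [dot_mul' ho, mul_pow]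

theorem nsq_W {W : Matrix m n ℝ} {v : n → n → ℝ} {σ : n → ℝ} (h : Sys W v σ) (u : n → ℝ) :
    nsq (W *ᵥ u) = ∑ k, σ k ^ 2 * (v k ⬝ᵥ u) ^ 2 := by
  have h0 : W *ᵥ u = ∑ k, (v k ⬝ᵥ u) • (W *ᵥ v k) := by
    conv_lhs => rw [← expand h.orth u]
    rw [mulVec_sum]
    exact Finset.sum_congr rfl fun k _ => mulVec_smul _ _ _
  rw [nsq_eq_dot, h0, sum_dotProduct]
  refine Finset.sum_congr rfl fun k _ => ?_
  rw [dotProduct_sum, Finset.sum_eq_single k]
  · rw [smul_dotProduct, dotProduct_smul, h.diag, if_pos rfl, smul_eq_mul, smul_eq_mul]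
    ring
  · intro l _ hl
    rw [smul_dotProduct, dotProduct_smul, h.diag, if_neg (Ne.symm hl), smul_zero, smul_zero]
  · intro h
    exact absurd (Finset.mem_univ k) h

theorem nsq_W_mul' {W : Matrix m n ℝ} {v : n → n → ℝ} {σ : n → ℝ} (h : Sys W v σ)
    (f : n → ℝ) (u : n → ℝ) :
    nsq ((W * mul' v f) *ᵥ u) = ∑ k, σ k ^ 2 * f k ^ 2 * (v k ⬝ᵥ u) ^ 2 := by
  rw [← mulVec_mulVec, nsq_W h]
  exact Finset.sum_congr rfl fun k _ => by rw [dot_mul' h.orth]; ring

theorem mul'_one {v : n → n → ℝ} (ho : ∀ k l, v k ⬝ᵥ v l = if k = l then 1 else 0) :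
    mul' v (fun _ => 1) = 1 := by
  apply Matrix.ext_of_mulVec_single
  intro j
  rw [mul'_mulVec, one_mulVec]
  conv_rhs => rw [← expand ho (Pi.single j 1)]
  exact Finset.sum_congr rfl fun k _ => by rw [one_mul]

theorem fl_fl {δ : n → ℝ} (hδ : ∀ i, δ i ^ 2 = 1) (u : n → ℝ) : fl δ (fl δ u) = u := by
  ext i
  have := hδ i
  simp only [fl]
  rw [← mul_assoc, ← sq, this, one_mul]

theorem dot_fl {δ : n → ℝ} (u w : n → ℝ) : fl δ u ⬝ᵥ w = u ⬝ᵥ fl δ w := by
  simp only [fl, dotProduct]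
  exact Finset.sum_congr rfl fun k _ => by ring

theorem fl_orth {v : n → n → ℝ} (ho : ∀ k l, v k ⬝ᵥ v l = if k = l then 1 else 0)
    {δ : n → ℝ} (hδ : ∀ i, δ i ^ 2 = 1) (k l : n) :
    fl δ (v k) ⬝ᵥ fl δ (v l) = if k = l then 1 else 0 := by
  rw [dot_fl, fl_fl hδ, ho]

theorem diagonal_mulVec_eq_fl (δ u : n → ℝ) : diagonal δ *ᵥ u = fl δ u := by
  ext i
  simp [fl, mulVec_diagonal]

theorem dd_comm (v : n → n → ℝ) (δ : n → ℝ) (k l : n) : dd v δ k l = dd v δ l k := by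
  unfold dd
  rw [← dot_fl, dotProduct_comm]

theorem dd_nonneg (v : n → n → ℝ) (δ : n → ℝ) (k l : n) : 0 ≤ dd v δ k l := sq_nonneg _

theorem nsq_add_le (u w : n → ℝ) : nsq (u + w) ≤ 2 * nsq u + 2 * nsq w := by
  unfold nsq
  rw [Finset.mul_sum, Finset.mul_sum, ← Finset.sum_add_distrib]
  refine Finset.sum_le_sum fun i _ => ?_
  have := sq_nonneg (u i - w i)
  simp only [Pi.add_apply]
  nlinarith

end basis

end Vale.Agent.P075
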