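import Vale.Agent.P075b.Base
import Vale.Agent.P075R.Homog

namespace Vale.Agent.P075

open Matrix

/-- the potential -/
noncomputable def psi {X Y Z : Type} [Fintype X] [DecidableEq X] [Fintype Y] [DecidableEq Y]
    [Fintype Z] [DecidableEq Z] (A : Matrix X Y ℝ) (B : Matrix Y Z ℝ) (C : Matrix Z X ℝ) : ℝ :=
  Psi (col A Bᵀ) + Psi (col B Cᵀ) + Psi (col C Aᵀ)

theorem Psi_nonneg {m n : Type} [Fintype m] [Fintype n] [DecidableEq n] (W : Matrix m n ℝ) :
    0 ≤ Psi W :=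
  Finset.sum_nonneg fun _ _ => pow_nonneg (Real.sqrt_nonneg _) _

theorem psi_nonneg {X Y Z : Type} [Fintype X] [DecidableEq X] [Fintype Y] [DecidableEq Y]
    [Fintype Z] [DecidableEq Z] (A : Matrix X Y ℝ) (B : Matrix Y Z ℝ) (C : Matrix Z X ℝ) :
    0 ≤ psi A B C :=
  add_nonneg (add_nonneg (Psi_nonneg _) (Psi_nonneg _)) (Psi_nonneg _)

theorem trace_eq {ι : Type} [Fintype ι] [DecidableEq ι]
    (A B C : Matrix (Fin 2 × ι) (Fin 2 × ι) ℝ) :
    (A * diagonal sgn * B * diagonal sgn * C * diagonal sgn).trace =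
      ∑ x, ∑ y, ∑ z, sg x.1 * sg y.1 * sg z.1 * (A x y * B y z * C z x) := by
  unfold trace
  refine Finset.sum_congr rfl fun x _ => ?_
  rw [diag_apply, mul_diagonal, mul_apply, Finset.sum_mul, Finset.sum_comm (s := Finset.univ)
    (t := Finset.univ) (f := fun y z => sg x.1 * sg y.1 * sg z.1 * (A x y * B y z * C z x))]
  refine Finset.sum_congr rfl fun z _ => ?_
  rw [mul_diagonal, mul_apply, Finset.sum_mul, Finset.sum_mul, Finset.sum_mul]
  refine Finset.sum_congr rfl fun y _ => ?_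
  rw [mul_diagonal]
  simp only [sgn]
  ring

theorem local_ineq (hstep : S_STEP) (htri : S_TRI) {ι : Type} [Fintype ι] [DecidableEq ι]
    (A B C : Matrix (Fin 2 × ι) (Fin 2 × ι) ℝ) :
    |∑ x, ∑ y, ∑ z, sg x.1 * sg y.1 * sg z.1 * (A x y * B y z * C z x)| ≤
      2752 * (2 * (∑ i, ∑ j, psi (blk A i j) (blk B j (i + j)) (blk C (i + j) i)) -
        psi A B C) := by
  have hs : ∀ x : Fin 2 × ι, (sgn x : ℝ) ^ 2 = 1 := by
    rintro ⟨i, a⟩
    fin_cases i <;> simp [sgn, sg]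
  have h1 := htri _ _ _ A B C sgn sgn sgn hs hs hs
  rw [trace_eq] at h1
  have hy := hstep ι ι ι A Bᵀ
  have hz := hstep ι ι ι B Cᵀ
  have hx := hstep ι ι ι C Aᵀ
  have e11 : (1 : Fin 2) + 1 = 0 := rfl
  have hT : ∀ (M : Matrix (Fin 2 × ι) (Fin 2 × ι) ℝ) (i j : Fin 2),
      blk Mᵀ i j = (blk M j i)ᵀ := fun _ _ _ => rfl
  simp only [Fin.sum_univ_two, hT, zero_add, add_zero, e11] at hx hy hz ⊢
  unfold psi
  linarith

theorem leaf_aux (a b : ℝ) (A B : Matrix Unit Unit ℝ) (hA : A () () = a) (hB : B () () = b) :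
    Psi (col A B) ≤ 4 * (|a| ^ 3 + |b| ^ 3) := by
  have h := sys _ _ (col A B)
  have h1 := nsq_W h (fun _ => 1)
  have h2 := h.pars (fun _ => 1)
  have h3 : nsq (col A B *ᵥ fun _ => (1 : ℝ)) = a ^ 2 + b ^ 2 := by
    simp [nsq, col, mulVec, dotProduct, hA, hB]
  have h4 : nsq (fun _ : Unit => (1 : ℝ)) = 1 := by simp [nsq]
  rw [h3] at h1
  rw [h4] at h2
  simp only [Finset.univ_unique, Finset.sum_singleton] at h1 h2
  rw [h2, mul_one] at h1
  have h5 : Psi (col A B) = sv (col A B) default ^ 3 := by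
    simp [Psi]
  rw [h5]
  have h6 := h.nn default
  have h7 : sv (col A B) default ≤ |a| + |b| := by
    have h8 : (sv (col A B) default) ^ 2 ≤ (|a| + |b|) ^ 2 := by
      rw [← h1]
      have := abs_nonneg a
      have := abs_nonneg b
      have := sq_abs a
      have := sq_abs b
      nlinarith [mul_nonneg (abs_nonneg a) (abs_nonneg b)]
    exact abs_le_of_sq_le_sq' h8 (by positivity) |>.2
  have h9 : sv (col A B) default ^ 3 ≤ (|a| + |b|) ^ 3 := pow_le_pow_left₀ h6 h7 3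
  refine h9.trans ?_
  have ha := abs_nonneg a
  have hb := abs_nonneg b
  nlinarith [mul_nonneg (add_nonneg ha hb) (sq_nonneg (|a| - |b|))]

theorem leaf (A B C : Matrix Unit Unit ℝ) :
    psi A B C ≤ 8 * (|A () ()| ^ 3 + |B () ()| ^ 3 + |C () ()| ^ 3) := by
  have h1 := leaf_aux _ _ A Bᵀ rfl rfl
  have h2 := leaf_aux _ _ B Cᵀ rfl rfl
  have h3 := leaf_aux _ _ C Aᵀ rfl rfl
  simp only [transpose_apply] at h1 h2 h3
  unfold psi
  linarith

/-- array inequality -/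
theorem array_ineq (hstep : S_STEP) (htri : S_TRI) (R : ℕ) (f0 f1 f2 : ℕ → ℕ → ℝ) :
    ∑ j ∈ Finset.range R, ((2 : ℝ) ^ (j + 1))⁻¹ *
      ∑ X ∈ Finset.range (2 ^ (R - (j + 1))), ∑ Y ∈ Finset.range (2 ^ (R - (j + 1))),
        |P075R.JN f0 f1 f2 j X Y (X ^^^ Y)| ≤
      3 * (2752 * 8) * (P075R.S3 R f0 * P075R.S3 R f1 * P075R.S3 R f2) ^ (1 / 3 : ℝ) := by
  refine P075R.homog (2752 * 8) (by norm_num) R ?_ f0 f1 f2
  intro f0 f1 f2
  refine P075R.recur_sum (β := Fin 2) (fun i => decide (i = 1)) (fun i j => i + j) ?_ ?_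
    (fun k A B C => psi A B C) 2752 8 (by norm_num) ?_ ?_ ?_ R f0 f1 f2
  · decide
  · intro g
    simp [Fin.sum_univ_two]
  · intro k A B C
    exact psi_nonneg A B C
  · intro A B C
    exact leaf A B C
  · intro k A B C
    have h := local_ineq hstep htri A B C
    have hsg : ∀ i : Fin 2, P075R.sB (decide (i = 1)) = sg i := by
      intro i
      fin_cases i <;> simp [P075R.sB, sg]
    simp only [hsg]
    exact h

end Vale.Agent.P075
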